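import Vale.Agent.P139.R2.H959.Dat
import Vale.Agent.P139.R2.H556.Defs

/-! Row R10a: the capped weights, the modes in a box, and the size of the random datum. -/

set_option autoImplicit false

open MvPolynomial Finset
open scoped ComplexConjugate ENNReal

namespace Vale.Agent.P139.BN

open Vale.Agent.P139.A Vale.Agent.P139.A.WA Vale.Agent.P139.R2P

variable {d : ℕ}

/-- The capped weight `2 ^ (α e_n)`, `e_n = (N / 4 + 1) min(1, |n| / 2 ^ (N + 8))`. -/
noncomputable def WW {d : ℕ} (α : ℝ) (N : ℕ) (n : Lat d) : ℝ :=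
  (2 : ℝ) ^ (α * (((N : ℝ) / 4 + 1) * min 1 (Real.sqrt (sqNorm n) / 2 ^ (N + 8))))

theorem WW_pos (α : ℝ) (N : ℕ) (n : Lat d) : 0 < WW α N n := by
  unfold WW
  positivity

theorem one_le_WW {α : ℝ} (hα : 0 ≤ α) (N : ℕ) (n : Lat d) : 1 ≤ WW α N n := by
  unfold WW
  apply Real.one_le_rpow (by norm_num)
  positivity

theorem WW_neg (α : ℝ) (N : ℕ) (n : Lat d) : WW α N (-n) = WW α N n := by
  unfold WW
  rw [sqNorm_neg]

theorem WW_zero (α : ℝ) (N : ℕ) : WW α N (0 : Lat d) = 1 := by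
  unfold WW
  rw [sqNorm_zero]
  simp

theorem WW_add_le {α : ℝ} (hα : 0 ≤ α) (N : ℕ) (a b : Lat d) :
    WW α N (a + b) ≤ WW α N a * WW α N b := by
  unfold WW
  rw [← Real.rpow_add (by norm_num)]
  apply Real.rpow_le_rpow_of_exponent_le (by norm_num)
  rw [← mul_add, ← mul_add]
  refine mul_le_mul_of_nonneg_left (mul_le_mul_of_nonneg_left ?_ (by positivity)) hα
  have h1 := eu_add_le a b
  unfold eu at h1
  refine min_one_add_le (by positivity) (by positivity) ?_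
  rw [← add_div]
  exact div_le_div_of_nonneg_right h1 (by positivity)

theorem WW_le {α : ℝ} (hα : 0 ≤ α) (N : ℕ) (n : Lat d) :
    WW α N n ≤ (2 : ℝ) ^ (α * ((N : ℝ) / 4 + 1)) := by
  unfold WW
  apply Real.rpow_le_rpow_of_exponent_le (by norm_num)
  refine mul_le_mul_of_nonneg_left ?_ hα
  exact mul_le_of_le_one_right (by positivity) (min_le_left _ _)

theorem WW_high (α : ℝ) (N : ℕ) (n : Lat d) (h : (4 : ℝ) ^ (N + 8) ≤ sqNorm n) :
    WW α N n = (2 : ℝ) ^ (α * ((N : ℝ) / 4 + 1)) := by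
  unfold WW
  have h1 : (2 : ℝ) ^ (N + 8) ≤ Real.sqrt (sqNorm n) := by
    apply Real.le_sqrt_of_sq_le
    rw [← pow_mul, mul_comm, pow_mul]
    norm_num
    exact h
  have h2 : min 1 (Real.sqrt (sqNorm n) / 2 ^ (N + 8)) = 1 := by
    apply min_eq_left
    rw [one_le_div (by positivity)]
    exact h1
  rw [h2, mul_one]

/-- A weight which is submultiplicative and even is submultiplicative along the momentum. -/
theorem W_sum_le {W : Lat d → ℝ} (h1 : ∀ n, 1 ≤ W n) (h0 : W 0 = 1) (hneg : ∀ n, W (-n) = W n)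
    (hadd : ∀ a b, W (a + b) ≤ W a * W b) {ι : Type} (mo : ι → Lat d) {j : ℕ}
    (I : Fin j → ι × Bool) : W (∑ l, sm mo (I l)) ≤ ∏ l, W (mo (I l).1) := by
  have key : ∀ s : Finset (Fin j), W (∑ l ∈ s, sm mo (I l)) ≤ ∏ l ∈ s, W (mo (I l).1) := by
    intro s
    induction s using Finset.induction_on with
    | empty => simp [h0]
    | insert a s ha ih =>
      rw [Finset.sum_insert ha, Finset.prod_insert ha]
      refine (hadd _ _).trans ?_
      have h2 : W (sm mo (I a)) = W (mo (I a).1) := by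
        unfold sm
        split_ifs
        · rfl
        · exact hneg _
      rw [h2]
      exact mul_le_mul_of_nonneg_left ih (zero_le_one.trans (h1 _))
  exact key univ

theorem mom_succAbove {ι : Type} (mo : ι → Lat d) {j : ℕ} (I : Fin (j + 1) → ι × Bool)
    (l : Fin (j + 1)) (h : mom mo I = 0) :
    sm mo (I l) = -∑ i : Fin j, sm mo (I (l.succAbove i)) := by
  unfold mom at h
  rw [Fin.sum_univ_succAbove _ l] at h
  exact eq_neg_of_add_eq_zero_left h

/-- The natural number `|n|²`. -/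
noncomputable def lv2 (n : Lat d) : ℕ := (∑ i, (n i) ^ 2).toNat

theorem lv2_cast (n : Lat d) : ((lv2 n : ℕ) : ℝ) = sqNorm n := by
  have h0 : 0 ≤ ∑ i, (n i) ^ 2 := Finset.sum_nonneg fun _ _ => sq_nonneg _
  have h2 : ((lv2 n : ℕ) : ℤ) = ∑ i, (n i) ^ 2 := Int.toNat_of_nonneg h0
  have h3 : ((lv2 n : ℕ) : ℝ) = ((∑ i, (n i) ^ 2 : ℤ) : ℝ) := by
    rw [← h2]
    norm_cast
  rw [h3]
  unfold sqNorm
  push_cast
  rfl

theorem one_le_lv2 {n : Lat d} (hn : n ≠ 0) : 1 ≤ lv2 n := by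
  have h := one_le_sqNorm hn
  rw [← lv2_cast] at h
  exact_mod_cast h

theorem Om_lv2 (μ : ℝ) (n : Lat d) : Om μ n = H212.om μ (lv2 n) := by
  unfold Om H212.om
  rw [lv2_cast]

theorem zero_nmem_box959 (L : ℕ) : (0 : Lat d) ∉ box d L := by
  unfold box
  simp

theorem ne_zero_of_mem_box959 {L : ℕ} {n : Lat d} (h : n ∈ box d L) : n ≠ 0 := by
  rintro rfl
  exact zero_nmem_box959 L h

theorem sum_pow_inv_le {q : ℕ} (hq : d ≤ 2 * q) (B : Finset (Lat d)) :
    ∑ n ∈ B, (((1 + sqNorm n) ^ q) ^ 2)⁻¹ ≤ 2 ^ d * ∑' n : Lat d, (A.W (2 * d) n)⁻¹ := by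
  calc ∑ n ∈ B, (((1 + sqNorm n) ^ q) ^ 2)⁻¹ ≤ ∑ n ∈ B, 2 ^ d * (A.W (2 * d) n)⁻¹ := by
        refine Finset.sum_le_sum fun n _ => ?_
        refine le_trans ?_ (inv_pow_le n)
        have h0 := sqNorm_nonneg n
        have h1 : (1 + sqNorm n) ^ d ≤ ((1 + sqNorm n) ^ q) ^ 2 := by
          rw [← pow_mul]
          exact pow_le_pow_right₀ (by linarith) (by omega)
        exact inv_anti₀ (by positivity) h1
    _ = 2 ^ d * ∑ n ∈ B, (A.W (2 * d) n)⁻¹ := by rw [Finset.mul_sum]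
    _ ≤ _ := by
        have := (summable_W_inv d).sum_le_tsum B fun n _ => (inv_pos.2 (W_pos n)).le
        gcongr

/-- The modes of a box. -/
theorem modes_box (d k : ℕ) : ∃ S : ℝ, 1 ≤ S ∧ ∀ (α : ℝ) (N J : ℕ) (μ γ : ℝ), 0 ≤ α → 3 ≤ J →
    J ≤ 10 * N → (∀ j ≤ 10 * N, ∀ (s : Fin j → Bool) (lv : Fin j → ℕ), (∀ l, 1 ≤ lv l) →
      (univ.filter fun l => 4 ^ (N + 8) ≤ lv l).card ≤ 2 →
      ¬ (∀ ν : ℕ, (univ.filter fun l => s l = true ∧ lv l = ν).card =
        (univ.filter fun l => s l = false ∧ lv l = ν).card) →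
      γ ≤ |∑ l, if s l then H212.om μ (lv l) else -H212.om μ (lv l)|) →
    ∀ L : ℕ, ∃ lev : {n // n ∈ box d L} → ℕ,
      Modes {n // n ∈ box d L} d J ((J : ℝ) ^ (2 * (k + d + 1))) γ (4 ^ (N + 8))
        ((2 : ℝ) ^ (-(α * ((N : ℝ) / 4 + 1)))) S (fun n => n.1) lev (fun n => Om μ n.1)
        (fun n => WW α N n.1) (fun n => (1 + sqNorm n.1) ^ (k + d + 1)) := by
  set Z : ℝ := 2 ^ d * ∑' n : Lat d, (A.W (2 * d) n)⁻¹ with hZ
  have hZ0 : 0 ≤ Z := mul_nonneg (by positivity) (tsum_nonneg fun n => (inv_pos.2 (W_pos n)).le)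
  refine ⟨Real.sqrt (1 + Z), by rw [Real.one_le_sqrt]; linarith,
    fun α N J μ γ hα hJ3 hJ hnr L => ⟨fun n => lv2 n.1, ?_⟩⟩
  have hθ : ((2 : ℝ) ^ (-(α * ((N : ℝ) / 4 + 1))))⁻¹ = (2 : ℝ) ^ (α * ((N : ℝ) / 4 + 1)) := by
    rw [Real.rpow_neg (by norm_num), inv_inv]
  have hsq : ∀ n n' : {n // n ∈ box d L}, lv2 n.1 = lv2 n'.1 → sqNorm n.1 = sqNorm n'.1 := by
    intro n n' h
    rw [← lv2_cast, ← lv2_cast, h]
  refine
    { inj := Subtype.val_injective
      mo_ne := fun n => ne_zero_of_mem_box959 n.2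
      one_le_W := fun n => one_le_WW hα N n.1
      one_le_pw := fun n => one_le_pow₀ (by have := sqNorm_nonneg n.1; linarith)
      θ_pos := by positivity
      W_le := fun n => by rw [hθ]; exact WW_le hα N n.1
      W_high := fun n hn => by
        rw [hθ]
        apply WW_high
        rw [← lv2_cast]
        exact_mod_cast hn
      W_lev := fun n n' h => by
        simp only [WW, hsq n n' h]
      pw_lev := fun n n' h => by
        simp only [hsq n n' h]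
      fr_lev := fun n n' h => by
        simp only [Om, hsq n n' h]
      W_mom := ?_
      pw_mom := ?_
      nonres := ?_
      summ := ?_ }
  · intro j I l hI
    have h1 := mom_succAbove (fun n : {n // n ∈ box d L} => n.1) I l hI
    have h2 := W_sum_le (W := WW α N) (one_le_WW hα N) (WW_zero α N) (WW_neg α N)
      (WW_add_le hα N) (fun n : {n // n ∈ box d L} => n.1) (fun i => I (l.succAbove i))
    have h3 : WW α N (sm (fun n : {n // n ∈ box d L} => n.1) (I l)) = WW α N (I l).1.1 := by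
      unfold sm
      split_ifs
      · rfl
      · exact WW_neg α N _
    rw [← h3, h1, WW_neg]
    exact h2
  · intro j hj I l hI
    have hj0 : j ≠ 0 := by
      rintro rfl
      have h1 := mom_succAbove (fun n : {n // n ∈ box d L} => n.1) I l hI
      simp only [Finset.univ_eq_empty, Finset.sum_empty, neg_zero] at h1
      have h2 := ne_zero_of_mem_box959 (I l).1.2
      unfold sm at h1
      split_ifs at h1
      · exact h2 h1
      · exact h2 (neg_eq_zero.1 h1)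
    haveI : Nonempty (Fin j) := ⟨⟨0, by omega⟩⟩
    obtain ⟨i, hi⟩ := Finite.exists_max fun i : Fin j => sqNorm (I (l.succAbove i)).1.1
    refine ⟨i, ?_⟩
    have h1 := mom_succAbove (fun n : {n // n ∈ box d L} => n.1) I l hI
    have hsm : ∀ v : {n // n ∈ box d L} × Bool,
        eu (sm (fun n : {n // n ∈ box d L} => n.1) v) = eu v.1.1 := by
      intro v
      unfold sm
      split_ifs
      · rfl
      · exact eu_neg _
    have heusum : ∀ s : Finset (Fin j), eu (∑ i ∈ s, sm (fun n : {n // n ∈ box d L} => n.1)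
        (I (l.succAbove i))) ≤ ∑ i ∈ s, eu (I (l.succAbove i)).1.1 := by
      intro s
      induction s using Finset.induction_on with
      | empty => simp [eu, sqNorm_zero]
      | insert a s ha ih =>
        rw [Finset.sum_insert ha, Finset.sum_insert ha]
        refine (eu_add_le _ _).trans ?_
        rw [hsm]
        exact add_le_add le_rfl ih
    have h2 : eu (I l).1.1 ≤ j * eu (I (l.succAbove i)).1.1 := by
      calc eu (I l).1.1 = eu (sm (fun n : {n // n ∈ box d L} => n.1) (I l)) := (hsm _).symm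
        _ = eu (∑ i : Fin j, sm (fun n : {n // n ∈ box d L} => n.1) (I (l.succAbove i))) := by
            rw [h1, eu_neg]
        _ ≤ ∑ i : Fin j, eu (I (l.succAbove i)).1.1 := heusum univ
        _ ≤ ∑ _i : Fin j, eu (I (l.succAbove i)).1.1 := by
            refine Finset.sum_le_sum fun i' _ => ?_
            exact Real.sqrt_le_sqrt (hi i')
        _ = j * eu (I (l.succAbove i)).1.1 := by simp
    have h3 : sqNorm (I l).1.1 ≤ (j : ℝ) ^ 2 * sqNorm (I (l.succAbove i)).1.1 := by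
      rw [← eu_sq, ← eu_sq, ← mul_pow]
      exact pow_le_pow_left₀ (eu_nonneg _) h2 2
    have hj1 : (1 : ℝ) ≤ j := by exact_mod_cast Nat.one_le_iff_ne_zero.2 hj0
    have hjJ : (j : ℝ) ≤ J := by exact_mod_cast (by omega : j ≤ J)
    have hs0 := sqNorm_nonneg (I (l.succAbove i)).1.1
    have hs1 := sqNorm_nonneg (I l).1.1
    have h4 : 1 + sqNorm (I l).1.1 ≤ (J : ℝ) ^ 2 * (1 + sqNorm (I (l.succAbove i)).1.1) := by
      have h5 : (j : ℝ) ^ 2 ≤ (J : ℝ) ^ 2 := pow_le_pow_left₀ (by linarith) hjJ 2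
      have h6 : (1 : ℝ) ≤ (J : ℝ) ^ 2 := by nlinarith
      nlinarith
    calc (1 + sqNorm (I l).1.1) ^ (k + d + 1)
        ≤ ((J : ℝ) ^ 2 * (1 + sqNorm (I (l.succAbove i)).1.1)) ^ (k + d + 1) :=
          pow_le_pow_left₀ (by linarith) h4 _
      _ = (J : ℝ) ^ (2 * (k + d + 1)) * (1 + sqNorm (I (l.succAbove i)).1.1) ^ (k + d + 1) := by
          rw [mul_pow, ← pow_mul]
  · intro j hj3 hjJ I hI hhi hres
    have h1 := hnr j (by omega) (fun l => (I l).2) (fun l => lv2 (I l).1.1)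
      (fun l => one_le_lv2 (ne_zero_of_mem_box959 (I l).1.2)) hhi hres
    unfold dv
    simp only [Om_lv2]
    exact h1
  · have h1 := sum_pow_inv_le (d := d) (q := k + d + 1) (by omega) (box d L)
    rw [Real.sq_sqrt (by linarith)]
    rw [← Finset.sum_coe_sort] at h1
    linarith

/-- Uniformly in `N`: `2 ^ (α e_n) ⟨n⟩ ^ (-α) ≤ 2 ^ (-(α - 2 b) / 4) ⟨n⟩ ^ (-b)`. -/
theorem WW_mul_le {α : ℝ} {b : ℕ} (hα : 2 * (b : ℝ) ≤ α) (N : ℕ) {n : Lat d} (hn : n ≠ 0) :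
    WW α N n * Real.sqrt (1 + sqNorm n) ^ (-α) ≤
      (2 : ℝ) ^ (-(α - 2 * b) / 4) * Real.sqrt (1 + sqNorm n) ^ (-(b : ℝ)) := by
  have hs := one_le_sqNorm hn
  have hs0 : 0 < 1 + sqNorm n := by linarith
  have h2 : ∀ β : ℝ, Real.sqrt (1 + sqNorm n) ^ (-β) =
      (2 : ℝ) ^ (-β * (1 / 2 * Real.logb 2 (1 + sqNorm n))) := by
    intro β
    have e1 : Real.sqrt (1 + sqNorm n) = (2 : ℝ) ^ (1 / 2 * Real.logb 2 (1 + sqNorm n)) := by
      rw [mul_comm, Real.rpow_mul (by norm_num), Real.rpow_logb (by norm_num) (by norm_num) hs0,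
        Real.sqrt_eq_rpow]
    rw [mul_comm (-β), Real.rpow_mul (by norm_num), ← e1]
  unfold WW
  rw [h2, h2, ← Real.rpow_add (by norm_num), ← Real.rpow_add (by norm_num)]
  apply Real.rpow_le_rpow_of_exponent_le (by norm_num)
  set L := 1 / 2 * Real.logb 2 (1 + sqNorm n) with hL
  set e := ((N : ℝ) / 4 + 1) * min 1 (Real.sqrt (sqNorm n) / 2 ^ (N + 8)) with he
  have hN0 : (0 : ℝ) ≤ N := Nat.cast_nonneg _
  have hL1 : 1 / 2 ≤ L := by
    have : (1 : ℝ) ≤ Real.logb 2 (1 + sqNorm n) := by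
      rw [Real.le_logb_iff_rpow_le (by norm_num) hs0, Real.rpow_one]
      linarith
    rw [hL]
    linarith
  -- the two bounds of `e`
  have key : e ≤ 1 / 4 ∨ e ≤ L / 2 - 1 / 4 := by
    rcases le_total (sqNorm n) ((2 : ℝ) ^ (N + 8)) with h | h
    · left
      have h3 : min 1 (Real.sqrt (sqNorm n) / 2 ^ (N + 8)) ≤ Real.sqrt (sqNorm n) / 2 ^ (N + 8) :=
        min_le_right _ _
      have h4 : (((N : ℝ) / 4 + 1) * 4 * Real.sqrt (sqNorm n)) ^ 2 ≤ ((2 : ℝ) ^ (N + 8)) ^ 2 := by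
        rw [mul_pow, Real.sq_sqrt (by linarith), sq ((2 : ℝ) ^ (N + 8))]
        have h5 : (((N : ℝ) / 4 + 1) * 4) ^ 2 ≤ (2 : ℝ) ^ (N + 8) := by
          have h6 : ∀ M : ℕ, (M + 4) ^ 2 ≤ 2 ^ (M + 8) := by
            intro M
            induction M with
            | zero => norm_num
            | succ M ih =>
              have : 2 ^ (M + 1 + 8) = 2 * 2 ^ (M + 8) := by ring
              rw [this]
              calc (M + 1 + 4) ^ 2 ≤ 2 * (M + 4) ^ 2 := by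
                    ring_nf
                    nlinarith [Nat.zero_le M, Nat.zero_le (M ^ 2)]
                _ ≤ 2 * 2 ^ (M + 8) := Nat.mul_le_mul_left 2 ih
          have h7 : ((N : ℝ) / 4 + 1) * 4 = N + 4 := by ring
          rw [h7]
          exact_mod_cast h6 N
        exact mul_le_mul h5 h (by linarith) (by positivity)
      have h5 : ((N : ℝ) / 4 + 1) * 4 * Real.sqrt (sqNorm n) ≤ (2 : ℝ) ^ (N + 8) :=
        (le_abs_self _).trans (abs_le_of_sq_le_sq h4 (by positivity))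
      calc e ≤ ((N : ℝ) / 4 + 1) * (Real.sqrt (sqNorm n) / 2 ^ (N + 8)) :=
            mul_le_mul_of_nonneg_left h3 (by positivity)
        _ ≤ 1 / 4 := by
            rw [← mul_div_assoc, div_le_iff₀ (by positivity)]
            linarith
    · right
      have h3 : e ≤ (N : ℝ) / 4 + 1 := mul_le_of_le_one_right (by positivity) (min_le_left _ _)
      have h4 : (N : ℝ) + 8 ≤ Real.logb 2 (1 + sqNorm n) := by
        rw [Real.le_logb_iff_rpow_le (by norm_num) hs0]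
        have h5 : (2 : ℝ) ^ ((N : ℝ) + 8) = (2 : ℝ) ^ (N + 8) := by
          rw [← Real.rpow_natCast]
          push_cast
          rfl
        rw [h5]
        linarith
      have h5 : ((N : ℝ) + 8) / 2 ≤ L := by
        rw [hL]
        linarith
      linarith
  have h1 : e - L ≤ -1 / 4 := by
    rcases key with h | h <;> linarith
  have h3 : e - L ≤ -(L / 2) := by
    rcases key with h | h <;> linarith
  have h4 : (α - 2 * b) * (e - L) ≤ (α - 2 * b) * (-1 / 4) :=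
    mul_le_mul_of_nonneg_left h1 (by linarith)
  have hb0 : (0 : ℝ) ≤ 2 * b := by positivity
  have h5 : 2 * (b : ℝ) * (e - L) ≤ 2 * b * (-(L / 2)) := mul_le_mul_of_nonneg_left h3 hb0
  nlinarith

/-- Almost surely the weighted norm of the datum is `≤ C 2 ^ (-α / 4)`, uniformly in `N`. -/
theorem ae_data {Ω : Type} [MeasurableSpace Ω] (P : MeasureTheory.Measure Ω) (k : ℕ)
    (g : Lat d → Ω → ℂ) (hm : ∀ n, Measurable (g n)) (hg : ∀ n, P.map (g n) = stdComplexGaussian) :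
    ∀ᵐ ω ∂P, ∃ C : ℝ, 1 ≤ C ∧ ∃ α₁ : ℝ, ∀ α ≥ α₁, ∀ N : ℕ, (N : ℝ) ^ 9 ≤ α →
      ∀ B : Finset (Lat d), (0 : Lat d) ∉ B →
        nL B (fun n => WW α N n * (1 + sqNorm n) ^ (k + d + 1)) (datum g α ω) ≤
          C * (2 : ℝ) ^ (-α / 4) := by
  filter_upwards [ae_summable hm hg] with ω hs
  set γ : Lat d → ℂ := fun n => g n ω with hγdef
  set G : ℝ := ∑' n, ‖γ n‖ * (A.W (2 * d) n)⁻¹ with hG
  have hterm : ∀ n, 0 ≤ ‖γ n‖ * (A.W (2 * d) n)⁻¹ := fun n =>
    mul_nonneg (norm_nonneg _) (inv_pos.2 (W_pos n)).le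
  have hG0 : 0 ≤ G := tsum_nonneg hterm
  have hγ : ∀ n, ‖γ n‖ ≤ G * A.W (2 * d) n := by
    intro n
    have h1 : ‖γ n‖ * (A.W (2 * d) n)⁻¹ ≤ G := hs.le_tsum n fun j _ => hterm j
    have h2 := W_pos (k := 2 * d) n
    rwa [← div_eq_mul_inv, div_le_iff₀ h2] at h1
  set Z : ℝ := ∑' n : Lat d, (A.W (2 * d) n)⁻¹ with hZ
  have hZ0 : 0 ≤ Z := tsum_nonneg fun n => (inv_pos.2 (W_pos n)).le
  set r : ℕ := 2 * (k + d + 1) with hr
  set b : ℕ := r + 3 * d with hb
  set D : ℝ := (2 : ℝ) ^ (b : ℝ) * (G ^ 2 * 2 ^ (2 * d) * 2 ^ d) with hD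
  have hD0 : 0 ≤ D := by positivity
  refine ⟨1 + Real.sqrt (D * Z), by have := Real.sqrt_nonneg (D * Z); linarith, 2 * b,
    fun α hα N _ B hB => ?_⟩
  have key : ∀ n ∈ B, (WW α N n * (1 + sqNorm n) ^ (k + d + 1) * ‖datum g α ω n‖) ^ 2 ≤
      D * (2 : ℝ) ^ (-α / 2) * (A.W (2 * d) n)⁻¹ := by
    intro n hn
    have hn0 : n ≠ 0 := fun h => hB (h ▸ hn)
    have hs1 := one_le_sqNorm hn0
    have hp : 0 < 1 + sqNorm n := by linarith
    have h1 := WW_mul_le hα N hn0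
    have h2 : (Real.sqrt (1 + sqNorm n) ^ (-(b : ℝ))) ^ 2 = ((1 + sqNorm n) ^ b)⁻¹ := by
      rw [Real.rpow_neg (Real.sqrt_nonneg _), Real.rpow_natCast, inv_pow, ← pow_mul, mul_comm b 2,
        pow_mul, Real.sq_sqrt hp.le]
    have h3 : ‖γ n‖ ^ 2 ≤ G ^ 2 * (2 ^ (2 * d) * (1 + sqNorm n) ^ (2 * d)) := by
      have h4 : ‖γ n‖ ≤ G * (2 ^ d * (1 + sqNorm n) ^ d) :=
        (hγ n).trans (mul_le_mul_of_nonneg_left (W_le_pow d n) hG0)
      calc ‖γ n‖ ^ 2 ≤ (G * (2 ^ d * (1 + sqNorm n) ^ d)) ^ 2 :=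
            pow_le_pow_left₀ (norm_nonneg _) h4 2
        _ = _ := by ring
    have h5 : ((2 : ℝ) ^ (-(α - 2 * b) / 4)) ^ 2 = (2 : ℝ) ^ (b : ℝ) * (2 : ℝ) ^ (-α / 2) := by
      rw [sq, ← Real.rpow_add (by norm_num), ← Real.rpow_add (by norm_num)]
      congr 1
      ring
    have h6 : (1 + sqNorm n) ^ r * ((1 + sqNorm n) ^ b)⁻¹ * (1 + sqNorm n) ^ (2 * d) =
        ((1 + sqNorm n) ^ d)⁻¹ := by
      rw [hb]
      have : (1 + sqNorm n) ^ (r + 3 * d) = (1 + sqNorm n) ^ r * (1 + sqNorm n) ^ (2 * d) *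
          (1 + sqNorm n) ^ d := by
        rw [← pow_add, ← pow_add]
        congr 1
        omega
      rw [this]
      have h7 : (1 + sqNorm n) ^ r ≠ 0 := by positivity
      have h8 : (1 + sqNorm n) ^ (2 * d) ≠ 0 := by positivity
      have h9 : (1 + sqNorm n) ^ d ≠ 0 := by positivity
      field_simp
    have hJ : 0 ≤ Real.sqrt (1 + sqNorm n) ^ (-α) := Real.rpow_nonneg (Real.sqrt_nonneg _) _
    have hnorm : ‖datum g α ω n‖ = ‖γ n‖ * Real.sqrt (1 + sqNorm n) ^ (-α) := by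
      unfold datum
      rw [norm_mul, Complex.norm_real, Real.norm_of_nonneg hJ]
    have hW0 := (WW_pos α N n).le
    rw [hnorm]
    calc (WW α N n * (1 + sqNorm n) ^ (k + d + 1) *
          (‖γ n‖ * Real.sqrt (1 + sqNorm n) ^ (-α))) ^ 2
        = (WW α N n * Real.sqrt (1 + sqNorm n) ^ (-α)) ^ 2 *
            ((1 + sqNorm n) ^ r * ‖γ n‖ ^ 2) := by
          rw [hr]
          ring
      _ ≤ ((2 : ℝ) ^ (-(α - 2 * b) / 4) * Real.sqrt (1 + sqNorm n) ^ (-(b : ℝ))) ^ 2 *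
            ((1 + sqNorm n) ^ r * (G ^ 2 * (2 ^ (2 * d) * (1 + sqNorm n) ^ (2 * d)))) := by
          gcongr
      _ = ((2 : ℝ) ^ (-(α - 2 * b) / 4)) ^ 2 * (G ^ 2 * 2 ^ (2 * d)) *
            ((1 + sqNorm n) ^ r * (Real.sqrt (1 + sqNorm n) ^ (-(b : ℝ))) ^ 2 *
              (1 + sqNorm n) ^ (2 * d)) := by ring
      _ = ((2 : ℝ) ^ (b : ℝ) * (2 : ℝ) ^ (-α / 2)) * (G ^ 2 * 2 ^ (2 * d)) *
            ((1 + sqNorm n) ^ d)⁻¹ := by rw [h5, h2, h6]
      _ ≤ ((2 : ℝ) ^ (b : ℝ) * (2 : ℝ) ^ (-α / 2)) * (G ^ 2 * 2 ^ (2 * d)) *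
            (2 ^ d * (A.W (2 * d) n)⁻¹) := by
          have := inv_pow_le n
          gcongr
      _ = _ := by
          rw [hD]
          ring
  have hsum : ∑ n ∈ B, (WW α N n * (1 + sqNorm n) ^ (k + d + 1) * ‖datum g α ω n‖) ^ 2 ≤
      (D * Z) * (2 : ℝ) ^ (-α / 2) := by
    calc _ ≤ ∑ n ∈ B, D * (2 : ℝ) ^ (-α / 2) * (A.W (2 * d) n)⁻¹ := Finset.sum_le_sum key
      _ = D * (2 : ℝ) ^ (-α / 2) * ∑ n ∈ B, (A.W (2 * d) n)⁻¹ := by rw [Finset.mul_sum]
      _ ≤ D * (2 : ℝ) ^ (-α / 2) * Z := by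
          have := (summable_W_inv d).sum_le_tsum B fun n _ => (inv_pos.2 (W_pos n)).le
          gcongr
      _ = _ := by ring
  unfold nL
  have h7 : Real.sqrt ((2 : ℝ) ^ (-α / 2)) = (2 : ℝ) ^ (-α / 4) := by
    rw [Real.sqrt_eq_rpow, ← Real.rpow_mul (by norm_num)]
    congr 1
    ring
  calc _ ≤ Real.sqrt ((D * Z) * (2 : ℝ) ^ (-α / 2)) := Real.sqrt_le_sqrt hsum
    _ = Real.sqrt (D * Z) * (2 : ℝ) ^ (-α / 4) := by
        rw [Real.sqrt_mul (by positivity), h7]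
    _ ≤ (1 + Real.sqrt (D * Z)) * (2 : ℝ) ^ (-α / 4) := by
        gcongr
        linarith

end Vale.Agent.P139.BN
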