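import Vale.Agent.P139.R2.H836.Div

/-! Interface of row R1c: quantitative nonresonance. -/

set_option autoImplicit false

open Finset MeasureTheory
open scoped ENNReal

namespace Vale.Agent.P139.R2N

/-- The signed sum of frequencies. -/
noncomputable def ss (μ : ℝ) {j : ℕ} (s : Fin j → Bool) (lv : Fin j → ℕ) : ℝ :=
  ∑ l, if s l then H212.om μ (lv l) else -H212.om μ (lv l)

/-- As many plus as minus signs at the level `ν`. -/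
def BalAt {j : ℕ} (s : Fin j → Bool) (lv : Fin j → ℕ) (ν : ℕ) : Prop :=
  (univ.filter fun l => s l = true ∧ lv l = ν).card =
    (univ.filter fun l => s l = false ∧ lv l = ν).card

/-- Some level `< L` is not balanced. -/
def Low (L : ℕ) {j : ℕ} (s : Fin j → Bool) (lv : Fin j → ℕ) : Prop := ∃ ν < L, ¬ BalAt s lv ν

/-- At most two high levels. -/
def Two (L : ℕ) {j : ℕ} (lv : Fin j → ℕ) : Prop := (univ.filter fun l => L ≤ lv l).card ≤ 2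

/-- **(D)** Small divisor sets have small measure. -/
def MeasSmall : Prop := ∃ c N₁ : ℕ, ∀ N ≥ N₁, ∀ j ≤ 10 * N, ∀ (s : Fin j → Bool) (lv : Fin j → ℕ),
  (∀ l, 1 ≤ lv l) → Low (4 ^ (N + 8)) s lv → ∀ q : ℤ, ∀ x : ℝ, 0 < x → x ≤ 1 →
    volume {μ : ℝ | μ ∈ Set.Icc (1 / (N : ℝ)) N ∧ |ss μ s lv + q| < x} ≤
      ENNReal.ofReal ((2 : ℝ) ^ (c * N ^ 2) * x ^ (1 / (10 * N : ℝ)))

/-- Step 1: low configurations, with an integer shift. -/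
def H1 (N : ℕ) (μ : ℝ) : Prop := ∀ j ≤ 10 * N, ∀ (s : Fin j → Bool) (lv : Fin j → ℕ),
  (∀ l, 1 ≤ lv l) → (∀ l, lv l < 4 ^ (N + 8)) → Low (4 ^ (N + 8)) s lv →
    ∀ q : ℤ, |q| ≤ 2 ^ (5 * N) → ((2 : ℝ) ^ (N ^ 4))⁻¹ ≤ |ss μ s lv + q|

/-- Step 2: at most two high levels, below `2 ^ (2 N ^ 4)`. -/
def H2 (N : ℕ) (μ : ℝ) : Prop := ∀ j ≤ 10 * N, ∀ (s : Fin j → Bool) (lv : Fin j → ℕ),
  (∀ l, 1 ≤ lv l) → (∀ l, lv l < 2 ^ (2 * N ^ 4)) → Two (4 ^ (N + 8)) lv →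
    Low (4 ^ (N + 8)) s lv → 2 * ((2 : ℝ) ^ (N ^ 6))⁻¹ ≤ |ss μ s lv|

/-- **(E)** The general case follows from steps 1 and 2. -/
def HighCases : Prop := ∃ N₂ : ℕ, ∀ N ≥ N₂, ∀ μ ∈ Set.Icc (1 / (N : ℝ)) N, H1 N μ → H2 N μ →
  ∀ j ≤ 10 * N, ∀ (s : Fin j → Bool) (lv : Fin j → ℕ), (∀ l, 1 ≤ lv l) → Two (4 ^ (N + 8)) lv →
    ¬ (∀ ν, BalAt s lv ν) → 2 * ((2 : ℝ) ^ (N ^ 6))⁻¹ ≤ |ss μ s lv|

end Vale.Agent.P139.R2N
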