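import Vale.Agent.P139.H212.Ae
import Mathlib.Analysis.SpecialFunctions.PolarCoord
import Mathlib.MeasureTheory.Function.Jacobian

/-! Row R1c: null sets of the law of `m |z|^(2m)`. -/

set_option autoImplicit false

open Set MeasureTheory
open scoped ENNReal

namespace Vale.Agent.P139.R2N

open Vale.Agent.P139.A (stdComplexGaussian)

/-- The norm of a complex number does not charge null sets. -/
theorem norm_null {F : Set ℝ} (hF : volume F = 0) : volume {z : ℂ | ‖z‖ ∈ F} = 0 := by
  set F' := toMeasurable volume F with hF'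
  have hm : MeasurableSet F' := measurableSet_toMeasurable _ _
  have h0 : volume F' = 0 := by rw [hF', measure_toMeasurable, hF]
  refine measure_mono_null (t := {z : ℂ | ‖z‖ ∈ F'}) (fun z hz => subset_toMeasurable _ _ hz) ?_
  have hmz : MeasurableSet {z : ℂ | ‖z‖ ∈ F'} := measurable_norm hm
  rw [← lintegral_indicator_one hmz, ← Complex.lintegral_comp_polarCoord_symm]
  have h1 : ∀ᵐ p : ℝ × ℝ ∂(volume.restrict polarCoord.target), p.1 ∉ F' := by
    apply ae_restrict_of_ae
    rw [ae_iff]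
    have : {p : ℝ × ℝ | ¬ p.1 ∉ F'} = F' ×ˢ (univ : Set ℝ) := by
      ext p
      simp
    rw [this, Measure.volume_eq_prod, Measure.prod_prod, h0, zero_mul]
  have h2 : ∀ᵐ p : ℝ × ℝ ∂(volume.restrict polarCoord.target), p ∈ polarCoord.target :=
    ae_restrict_mem polarCoord.open_target.measurableSet
  rw [← lintegral_zero (μ := volume.restrict polarCoord.target)]
  apply lintegral_congr_ae
  filter_upwards [h1, h2] with p hp hp2
  have h3 : ‖Complex.polarCoord.symm p‖ = p.1 := by
    rw [Complex.norm_polarCoord_symm]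
    exact abs_of_pos hp2.1
  have h4 : Complex.polarCoord.symm p ∉ {z : ℂ | ‖z‖ ∈ F'} := by
    rw [mem_setOf_eq, h3]
    exact hp
  rw [indicator_of_notMem h4, smul_zero]

/-- Almost every statement in the frequency parameter is an almost sure statement in `z`. -/
theorem ae_law {m : ℕ} (hm : 1 ≤ m) {p : ℝ → Prop} (h : ∀ᵐ μ : ℝ, 0 < μ → p μ) :
    ∀ᵐ z ∂stdComplexGaussian, z ≠ 0 ∧ p (m * ‖z‖ ^ (2 * m)) := by
  apply Vale.Agent.P139.H212.std_ac.ae_le
  have hm0 : (0 : ℝ) < m := by exact_mod_cast hm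
  set E : Set ℝ := {μ : ℝ | 0 < μ ∧ ¬ p μ} with hE
  have hE0 : volume E = 0 := by
    rw [ae_iff] at h
    refine measure_mono_null (fun μ hμ => ?_) h
    intro h1
    exact hμ.2 (h1 hμ.1)
  let ψ : ℝ → ℝ := fun μ => (μ / m) ^ (((2 * m : ℕ) : ℝ)⁻¹)
  have hψ : DifferentiableOn ℝ ψ E := by
    intro μ hμ
    have hμ0 : 0 < μ := hμ.1
    apply DifferentiableAt.differentiableWithinAt
    have : μ / m ≠ 0 := (div_pos hμ0 hm0).ne'
    exact DifferentiableAt.rpow_const (by fun_prop) (Or.inl this)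
  have h1 : volume (ψ '' E) = 0 :=
    addHaar_image_eq_zero_of_differentiableOn_of_addHaar_eq_zero volume hψ hE0
  have h2 := norm_null h1
  have h3 : volume ({0} : Set ℂ) = 0 := measure_singleton 0
  suffices hgoal : volume {z : ℂ | ¬ (z ≠ 0 ∧ p (m * ‖z‖ ^ (2 * m)))} = 0 from hgoal
  refine measure_mono_null (fun z hz => ?_) (measure_union_null h2 h3)
  rw [mem_setOf_eq, not_and_or] at hz
  by_cases h0 : z = 0
  · right
    exact h0
  left
  have hz0 : 0 < ‖z‖ := norm_pos_iff.2 h0
  have hnp : ¬ p (m * ‖z‖ ^ (2 * m)) := by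
    rcases hz with hz | hz
    · exact absurd h0 hz
    · exact hz
  refine ⟨m * ‖z‖ ^ (2 * m), ⟨by positivity, hnp⟩, ?_⟩
  simp only [ψ]
  rw [mul_div_cancel_left₀ _ hm0.ne', Real.pow_rpow_inv_natCast hz0.le (by omega)]

end Vale.Agent.P139.R2N
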