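import Vale.Agent.P139.R2.H959.NRMeas
import Vale.Agent.P139.R2.H959.NRLaw
import Vale.Agent.P139.R2.H556.Defs

/-! Row R1c: the quantitative nonresonance theorem from the measure estimate and the case
analysis. -/

set_option autoImplicit false

open Finset MeasureTheory Filter Topology
open scoped ENNReal

namespace Vale.Agent.P139.R2N

open Vale.Agent.P139.H212 (om om_sq om_nonneg)
open Vale.Agent.P139.R2D (le_om)

lemma om_lip {μ ν : ℝ} (hμ : 0 ≤ μ) (hν : 0 ≤ ν) (a : ℕ) : |om μ a - om ν a| ≤ |μ - ν| := by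
  rcases Nat.eq_zero_or_pos a with ha | ha
  · subst ha
    simp [om]
  have ha' : (0 : ℝ) < a := by exact_mod_cast ha
  have h1 := om_sq hμ a
  have h2 := om_sq hν a
  have h3 := le_om hμ a
  have h4 := le_om hν a
  have h5 : (om μ a - om ν a) * (om μ a + om ν a) = 2 * a * (μ - ν) := by
    have : (om μ a - om ν a) * (om μ a + om ν a) = om μ a ^ 2 - om ν a ^ 2 := by ring
    rw [this, h1, h2]
    ring
  have h6 : |om μ a - om ν a| * (om μ a + om ν a) = 2 * a * |μ - ν| := by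
    have h7 : |om μ a + om ν a| = om μ a + om ν a := abs_of_nonneg (by linarith)
    rw [← h7, ← abs_mul, h5, abs_mul, abs_of_pos (by positivity : (0 : ℝ) < 2 * a)]
  have h8 : |om μ a - om ν a| * (2 * a) ≤ |μ - ν| * (2 * a) := by
    calc |om μ a - om ν a| * (2 * a) ≤ |om μ a - om ν a| * (om μ a + om ν a) :=
          mul_le_mul_of_nonneg_left (by linarith) (abs_nonneg _)
      _ = |μ - ν| * (2 * a) := by rw [h6]; ring
  exact le_of_mul_le_mul_right h8 (by positivity)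

lemma ss_lip {μ ν : ℝ} (hμ : 0 ≤ μ) (hν : 0 ≤ ν) {j : ℕ} (s : Fin j → Bool) (lv : Fin j → ℕ) :
    |ss μ s lv - ss ν s lv| ≤ j * |μ - ν| := by
  unfold ss
  rw [← Finset.sum_sub_distrib]
  refine (Finset.abs_sum_le_sum_abs _ _).trans ?_
  calc _ ≤ ∑ _l : Fin j, |μ - ν| := by
        refine Finset.sum_le_sum fun l _ => ?_
        have := om_lip hμ hν (lv l)
        split_ifs
        · exact this
        · rw [show -om μ (lv l) - -om ν (lv l) = -(om μ (lv l) - om ν (lv l)) by ring, abs_neg]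
          exact this
    _ = _ := by simp

/-- The property of the frequency parameter. -/
def NRAt (μ₀ : ℝ) : Prop := ∃ N₀ : ℕ, ∀ N : ℕ, N₀ ≤ N →
    ∀ μ : ℝ, |μ - μ₀| ≤ ((2 : ℝ) ^ (N ^ 6 + N))⁻¹ →
    ∀ j ≤ 10 * N, ∀ (s : Fin j → Bool) (lv : Fin j → ℕ),
      (∀ l, 1 ≤ lv l) → (univ.filter fun l => 4 ^ (N + 8) ≤ lv l).card ≤ 2 →
      ¬ (∀ ν : ℕ, (univ.filter fun l => s l = true ∧ lv l = ν).card =
        (univ.filter fun l => s l = false ∧ lv l = ν).card) →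
      ((2 : ℝ) ^ (N ^ 6))⁻¹ ≤ |∑ l, if s l then om μ (lv l) else -om μ (lv l)|

theorem summable_half : Summable fun N : ℕ => (2 : ℝ) ^ (-(N : ℝ)) := by
  have h : (fun N : ℕ => (2 : ℝ) ^ (-(N : ℝ))) = fun N : ℕ => ((1 : ℝ) / 2) ^ N := by
    funext N
    rw [Real.rpow_neg (by norm_num), Real.rpow_natCast, one_div, inv_pow]
  rw [h]
  exact summable_geometric_of_lt_one (by norm_num) (by norm_num)

theorem ae_NRAt (hD : MeasSmall) (hE : HighCases) : ∀ᵐ μ₀ : ℝ, 0 < μ₀ → NRAt μ₀ := by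
  obtain ⟨N₃, h3⟩ := meas_bad hD
  obtain ⟨N₂, h2⟩ := hE
  let B : ℕ → Set ℝ := fun N => {μ : ℝ | μ ∈ In (N + N₃) ∧ ¬ (H1 (N + N₃) μ ∧ H2 (N + N₃) μ)}
  have hB : (∑' N, volume (B N)) ≠ ∞ := by
    have h4 : (∑' N : ℕ, ENNReal.ofReal ((2 : ℝ) ^ (-(N : ℝ)))) ≠ ∞ :=
      summable_half.tsum_ofReal_ne_top
    refine ne_top_of_le_ne_top h4 (ENNReal.tsum_le_tsum fun N => ?_)
    refine (h3 (N + N₃) (by omega)).trans (ENNReal.ofReal_le_ofReal ?_)
    apply Real.rpow_le_rpow_of_exponent_le (by norm_num)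
    push_cast
    have : (0 : ℝ) ≤ N₃ := Nat.cast_nonneg _
    linarith
  filter_upwards [ae_eventually_notMem hB] with μ₀ hμ hpos
  obtain ⟨N₄, h5⟩ := eventually_atTop.1 hμ
  obtain ⟨N₅, h6⟩ := exists_nat_ge (max μ₀ (1 / μ₀))
  have h6a : μ₀ ≤ N₅ := (le_max_left _ _).trans h6
  have h6b : 1 / μ₀ ≤ N₅ := (le_max_right _ _).trans h6
  refine ⟨N₃ + N₄ + N₅ + N₂ + 6, fun N hN μ hμN j hj s lv h1 hTwo hnb => ?_⟩
  have hN1 : 1 ≤ N := by omega
  have hNr : (1 : ℝ) ≤ N := by exact_mod_cast hN1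
  have hN5 : (N₅ : ℝ) ≤ N := by exact_mod_cast (by omega : N₅ ≤ N)
  have hin : μ₀ ∈ In N := by
    refine ⟨?_, h6a.trans hN5⟩
    rw [div_le_iff₀ (by linarith)]
    have : 1 / μ₀ ≤ N := h6b.trans hN5
    rw [div_le_iff₀ hpos] at this
    linarith
  have hnot := h5 (N - N₃) (by omega)
  have hNN : N - N₃ + N₃ = N := by omega
  simp only [B, hNN] at hnot
  have hboth : H1 N μ₀ ∧ H2 N μ₀ := by
    by_contra hcon
    exact hnot ⟨hin, hcon⟩
  have h7 : 2 * ((2 : ℝ) ^ (N ^ 6))⁻¹ ≤ |ss μ₀ s lv| :=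
    h2 N (by omega) μ₀ hin hboth.1 hboth.2 j hj s lv h1 hTwo hnb
  -- perturbation
  have hδ : ((2 : ℝ) ^ (N ^ 6 + N))⁻¹ = ((2 : ℝ) ^ (N ^ 6))⁻¹ * ((2 : ℝ) ^ N)⁻¹ := by
    rw [pow_add, mul_inv]
  have h10 : (10 * N : ℝ) ≤ (2 : ℝ) ^ N := by
    have h11 : ∀ n : ℕ, 6 ≤ n → 10 * n ≤ 2 ^ n := by
      intro n hn
      induction n, hn using Nat.le_induction with
      | base => norm_num
      | succ n hn ih =>
        rw [pow_succ]
        omega
    exact_mod_cast h11 N (by omega)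
  have hμ0 : 0 ≤ μ := by
    have h12 : ((2 : ℝ) ^ (N ^ 6 + N))⁻¹ ≤ 1 / N := by
      rw [inv_eq_one_div]
      apply one_div_le_one_div_of_le (by linarith)
      calc (N : ℝ) ≤ 10 * N := by linarith
        _ ≤ (2 : ℝ) ^ N := h10
        _ ≤ (2 : ℝ) ^ (N ^ 6 + N) := pow_le_pow_right₀ (by norm_num) (by omega)
    have h13 := (abs_le.1 hμN).1
    have h14 := hin.1
    linarith
  have h8 := ss_lip hμ0 hpos.le s lv
  have h9 : (j : ℝ) * |μ - μ₀| ≤ ((2 : ℝ) ^ (N ^ 6))⁻¹ := by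
    have hj' : (j : ℝ) ≤ 10 * N := by exact_mod_cast hj
    calc (j : ℝ) * |μ - μ₀| ≤ (2 : ℝ) ^ N * ((2 : ℝ) ^ (N ^ 6 + N))⁻¹ :=
          mul_le_mul (hj'.trans h10) hμN (abs_nonneg _) (by positivity)
      _ = ((2 : ℝ) ^ (N ^ 6))⁻¹ := by
          rw [hδ]
          have : (2 : ℝ) ^ N ≠ 0 := by positivity
          field_simp
  have h15 : |ss μ₀ s lv| ≤ |ss μ s lv| + |ss μ s lv - ss μ₀ s lv| := by
    have : ss μ₀ s lv = ss μ s lv - (ss μ s lv - ss μ₀ s lv) := by ring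
    calc |ss μ₀ s lv| = |ss μ s lv - (ss μ s lv - ss μ₀ s lv)| := by rw [← this]
      _ ≤ _ := abs_sub _ _
  show ((2 : ℝ) ^ (N ^ 6))⁻¹ ≤ |ss μ s lv|
  linarith

/-- **Row R1c** from the measure estimate (D) and the case analysis (E). -/
theorem nrThm_of (hD : MeasSmall) (hE : HighCases) : BN.NRThm := by
  intro m hm
  filter_upwards [ae_law hm (ae_NRAt hD hE)] with z hz
  exact hz

end Vale.Agent.P139.R2N
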