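import Vale.Agent.P139.R2.H959.NRDef

/-! Interface of row S1 (stage 2): quantitative nonresonance with probability `1 - 2 ^ (-N)`. -/

set_option autoImplicit false

open Finset MeasureTheory
open scoped ENNReal

namespace Vale.Agent.P139.R2N

/-- The interval `[2 ^ (-3 m N), 2 ^ (3 m N)]`. -/
abbrev InQ (m N : ℕ) : Set ℝ := Set.Icc ((2 : ℝ) ^ (3 * m * N))⁻¹ ((2 : ℝ) ^ (3 * m * N))

/-- **(D)** Small divisor sets have small measure, on the long interval. -/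
def MeasSmallQ (m : ℕ) : Prop :=
  ∃ c N₁ : ℕ, ∀ N ≥ N₁, ∀ j ≤ 10 * N, ∀ (s : Fin j → Bool) (lv : Fin j → ℕ),
    (∀ l, 1 ≤ lv l) → Low (4 ^ (N + 8)) s lv → ∀ q : ℤ, ∀ x : ℝ, 0 < x → x ≤ 1 →
      volume {μ : ℝ | μ ∈ InQ m N ∧ |ss μ s lv + q| < x} ≤
        ENNReal.ofReal ((2 : ℝ) ^ (c * N ^ 2) * x ^ (1 / (10 * N : ℝ)))

/-- Step 1: low configurations, with an integer shift. -/
def H1Q (m N : ℕ) (μ : ℝ) : Prop := ∀ j ≤ 10 * N, ∀ (s : Fin j → Bool) (lv : Fin j → ℕ),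
  (∀ l, 1 ≤ lv l) → (∀ l, lv l < 4 ^ (N + 8)) → Low (4 ^ (N + 8)) s lv →
    ∀ q : ℤ, |q| ≤ 2 ^ ((3 * m + 5) * N) → ((2 : ℝ) ^ (N ^ 4))⁻¹ ≤ |ss μ s lv + q|

/-- **(E)** The general case follows from steps 1 and 2, on the long interval. -/
def HighCasesQ (m : ℕ) : Prop := ∃ N₂ : ℕ, ∀ N ≥ N₂, ∀ μ ∈ InQ m N, H1Q m N μ → H2 N μ →
  ∀ j ≤ 10 * N, ∀ (s : Fin j → Bool) (lv : Fin j → ℕ), (∀ l, 1 ≤ lv l) → Two (4 ^ (N + 8)) lv →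
    ¬ (∀ ν, BalAt s lv ν) → 2 * ((2 : ℝ) ^ (N ^ 6))⁻¹ ≤ |ss μ s lv|

end Vale.Agent.P139.R2N
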