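import Vale.Agent.P139.R2.H836.Meas
import Vale.Agent.P139.R2.H959.NRDef2

/-! Row S1 (D): the measure of the small divisor sets on the long interval. -/

set_option autoImplicit false

namespace Vale.Agent.P139.R2N

open Set Filter Topology MeasureTheory ProbabilityTheory
open Vale.Agent.P139.H212 Vale.Agent.P139.R2D

theorem lowerQ {k : ℕ →₀ ℤ} (h0 : k 0 = 0) {m N n : ℕ} (hN : 1 ≤ N) (hn : n ∈ k.support)
    (hn4 : n < 4 ^ (N + 8)) (hk : (k.support.card : ℕ) ≤ 10 * N) {μ : ℝ} (hμ : 0 ≤ μ)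
    (hμN : μ ≤ (2 : ℝ) ^ (3 * m * N)) (c : ℤ) : ∃ i, 1 ≤ i ∧ i ≤ 10 * N ∧
      ((2 : ℝ) ^ ((392 + 63 * m) * N ^ 2))⁻¹ ≤ |DF k c i μ| := by
  obtain ⟨i, h1, h2, h3⟩ := lower_gen h0 hn hμ c
  refine ⟨i, h1, h2.trans hk, le_trans ?_ h3⟩
  have hs1 : 1 ≤ k.support.card := Finset.card_pos.2 ⟨n, hn⟩
  apply inv_anti₀ (by positivity)
  have hp1 : (1 : ℝ) ≤ (2 : ℝ) ^ (3 * m * N) := one_le_pow₀ (by norm_num)
  have e1 : (1 : ℝ) + 2 * μ ≤ 2 ^ (3 * m * N + 2) := by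
    rw [pow_add]
    linarith
  have e2 : (n : ℝ) + 1 + 2 * μ ≤ 2 ^ (2 * N + 17 + 3 * m * N) := by
    have h4 : (n : ℝ) + 1 ≤ (2 : ℝ) ^ (2 * N + 16) := by
      have h5 : n + 1 ≤ 2 ^ (2 * N + 16) := by
        have : (4 : ℕ) ^ (N + 8) = 2 ^ (2 * N + 16) := by
          rw [show (4 : ℕ) = 2 ^ 2 by norm_num, ← pow_mul]
          congr 1
        omega
      exact_mod_cast h5
    have h6 : (2 : ℝ) ^ (2 * N + 17 + 3 * m * N) = 2 ^ (2 * N + 16) * 2 ^ (3 * m * N) * 2 := by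
      rw [← pow_add, ← pow_succ]
      congr 1
      ring
    have h7 : (1 : ℝ) ≤ (2 : ℝ) ^ (2 * N + 16) := one_le_pow₀ (by norm_num)
    have h8 : (2 : ℝ) ^ (3 * m * N) ≤ 2 ^ (2 * N + 16) * 2 ^ (3 * m * N) :=
      le_mul_of_one_le_left (by positivity) h7
    have h9 : (2 : ℝ) ^ (2 * N + 16) ≤ 2 ^ (2 * N + 16) * 2 ^ (3 * m * N) :=
      le_mul_of_one_le_right (by positivity) hp1
    rw [h6]
    -- `a + 2 b ≤ 2 a b` fails in general, so use the sharper bound of `n + 1`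
    have h10 : (4 : ℝ) ≤ (2 : ℝ) ^ (2 * N + 16) := by
      calc (4 : ℝ) = 2 ^ 2 := by norm_num
        _ ≤ 2 ^ (2 * N + 16) := pow_le_pow_right₀ (by norm_num) (by omega)
    nlinarith [mul_nonneg (sub_nonneg.2 h10) (sub_nonneg.2 hp1)]
  have hs2 : k.support.card - 1 ≤ 10 * N := by omega
  calc (2 : ℝ) ^ (k.support.card - 1) * (1 + 2 * μ) *
        (((n : ℝ) + 1 + 2 * μ) ^ 2) ^ (k.support.card - 1)
      ≤ (2 : ℝ) ^ (k.support.card - 1) * 2 ^ (3 * m * N + 2) *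
        ((2 ^ (2 * N + 17 + 3 * m * N)) ^ 2) ^ (k.support.card - 1) := by
        gcongr
    _ = (2 : ℝ) ^ ((k.support.card - 1) + (3 * m * N + 2) +
        (2 * N + 17 + 3 * m * N) * 2 * (k.support.card - 1)) := by
        rw [← pow_mul, ← pow_mul, ← pow_add, ← pow_add, mul_assoc (2 * N + 17 + 3 * m * N) 2]
    _ ≤ (2 : ℝ) ^ ((392 + 63 * m) * N ^ 2) := by
        apply pow_le_pow_right₀ (by norm_num)
        have h4 : (2 * N + 17 + 3 * m * N) * 2 * (k.support.card - 1) ≤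
            (2 * N + 17 + 3 * m * N) * 2 * (10 * N) := Nat.mul_le_mul_left _ hs2
        have h5 : N ≤ N ^ 2 := by nlinarith
        have h6 : m * N ≤ m * N ^ 2 := Nat.mul_le_mul_left _ h5
        calc (k.support.card - 1) + (3 * m * N + 2) +
              (2 * N + 17 + 3 * m * N) * 2 * (k.support.card - 1)
            ≤ 10 * N + (3 * m * N + 2) + (2 * N + 17 + 3 * m * N) * 2 * (10 * N) := by omega
          _ = 352 * N + 3 * (m * N) + 2 + 40 * N ^ 2 + 60 * (m * N ^ 2) - 2 * N := by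
              have : 10 * N + (3 * m * N + 2) + (2 * N + 17 + 3 * m * N) * 2 * (10 * N) + 2 * N =
                  352 * N + 3 * (m * N) + 2 + 40 * N ^ 2 + 60 * (m * N ^ 2) := by ring
              omega
          _ ≤ 352 * N ^ 2 + 3 * (m * N ^ 2) + 40 * N ^ 2 + 60 * (m * N ^ 2) := by omega
          _ = (392 + 63 * m) * N ^ 2 := by ring

/-- **Row (D)** on the long interval. -/
theorem measSmallQ (m : ℕ) : MeasSmallQ m := by
  refine ⟨129 * m + 869, 1, fun N hN j hj s lv hlv hlow q x hx hx1 => ?_⟩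
  obtain ⟨ν, hν, hbal⟩ := hlow
  set k := comb (fun l => sg (s l)) lv with hk
  have hk0 : k 0 = 0 := comb_zero_level _ _ hlv
  have hkν : ν ∈ k.support := Finsupp.mem_support_iff.2 (comb_sg_ne hbal)
  have hcard : k.support.card ≤ 10 * N := (comb_card_le _ _).trans hj
  have habs : (k.sum fun _ x => |x|) ≤ 10 * N := by
    have h1 := comb_abs_le (fun l => sg (s l)) lv fun l => abs_sg _
    have h2 : ((j : ℕ) : ℤ) ≤ 10 * N := by exact_mod_cast hj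
    exact h1.trans h2
  have hN' : (1 : ℝ) ≤ N := by exact_mod_cast hN
  have hp1 : (1 : ℝ) ≤ (2 : ℝ) ^ (3 * m * N) := one_le_pow₀ (by norm_num)
  have hab : ((2 : ℝ) ^ (3 * m * N))⁻¹ ≤ (2 : ℝ) ^ (3 * m * N) :=
    (inv_le_one_of_one_le₀ hp1).trans hp1
  have ha0 : 0 < ((2 : ℝ) ^ (3 * m * N))⁻¹ := by positivity
  set c₁ : ℕ := 392 + 63 * m with hc₁
  have h1 := R2S.partition (F := DF k q) (a := ((2 : ℝ) ^ (3 * m * N))⁻¹)
    (b := (2 : ℝ) ^ (3 * m * N))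
    (V := ((2 : ℝ) ^ (c₁ * N ^ 2))⁻¹) (M := 2 ^ (71 * N ^ 2)) (dl := x) (n := 10 * N)
    (by omega) hab (fun i _ y hy => hasDerivAt_DF hk0 q i (ha0.le.trans hy.1)) (by positivity)
    (fun y hy => lowerQ hk0 hN hkν hν hcard (ha0.le.trans hy.1) hy.2 q)
    (fun i h1 h2 y hy => upper hk0 hN habs (ha0.le.trans hy.1) q h1 h2) hx
  have hset : {μ : ℝ | μ ∈ InQ m N ∧ |ss μ s lv + q| < x}
      = {y ∈ Set.Icc ((2 : ℝ) ^ (3 * m * N))⁻¹ ((2 : ℝ) ^ (3 * m * N)) | |DF k q 0 y| < x} := by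
    ext μ
    simp only [mem_ofPred_eq]
    rw [DF_zero, dv_shift, ← ss_eq]
  rw [hset]
  refine h1.trans (ENNReal.ofReal_le_ofReal ?_)
  have h2' : (1 : ℝ) ≤ 2 := by norm_num
  -- the first factor
  have e1 : ((2 : ℝ) ^ (3 * m * N) - ((2 : ℝ) ^ (3 * m * N))⁻¹) *
      (2 * 2 ^ (71 * N ^ 2) / ((2 : ℝ) ^ (c₁ * N ^ 2))⁻¹) + 1
      ≤ 2 ^ (3 * m * N + 2 + (71 + c₁) * N ^ 2) := by
    have e2 : 2 * (2 : ℝ) ^ (71 * N ^ 2) / ((2 : ℝ) ^ (c₁ * N ^ 2))⁻¹ =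
        2 ^ (1 + (71 + c₁) * N ^ 2) := by
      rw [div_inv_eq_mul, ← pow_succ', ← pow_add]
      congr 1
      ring
    rw [e2]
    have e3 : (2 : ℝ) ^ (3 * m * N) - ((2 : ℝ) ^ (3 * m * N))⁻¹ ≤ 2 ^ (3 * m * N) := by linarith
    have e4 : (1 : ℝ) ≤ 2 ^ (3 * m * N + 1 + (71 + c₁) * N ^ 2) := one_le_pow₀ h2'
    calc ((2 : ℝ) ^ (3 * m * N) - ((2 : ℝ) ^ (3 * m * N))⁻¹) * 2 ^ (1 + (71 + c₁) * N ^ 2) + 1
        ≤ 2 ^ (3 * m * N) * 2 ^ (1 + (71 + c₁) * N ^ 2) +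
          2 ^ (3 * m * N + 1 + (71 + c₁) * N ^ 2) := by gcongr
      _ = 2 ^ (3 * m * N + 2 + (71 + c₁) * N ^ 2) := by
        rw [← pow_add, show 3 * m * N + (1 + (71 + c₁) * N ^ 2) =
            3 * m * N + 1 + (71 + c₁) * N ^ 2 by ring,
          show 3 * m * N + 2 + (71 + c₁) * N ^ 2 = (3 * m * N + 1 + (71 + c₁) * N ^ 2) + 1 by ring,
          pow_succ]
        ring
  -- the last factor
  have e5 : (2 * x / ((2 : ℝ) ^ (c₁ * N ^ 2))⁻¹) ^ ((1 : ℝ) / ((10 * N : ℕ) : ℝ))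
      ≤ 2 ^ (1 + c₁ * N ^ 2) * x ^ (1 / (10 * N : ℝ)) := by
    have e6 : 2 * x / ((2 : ℝ) ^ (c₁ * N ^ 2))⁻¹ = 2 ^ (1 + c₁ * N ^ 2) * x := by
      rw [div_inv_eq_mul, pow_add, pow_one]
      ring
    rw [e6, Real.mul_rpow (by positivity) hx.le]
    push_cast
    refine mul_le_mul_of_nonneg_right ?_ (by positivity)
    have e7 : (1 : ℝ) ≤ 2 ^ (1 + c₁ * N ^ 2) := one_le_pow₀ h2'
    calc ((2 : ℝ) ^ (1 + c₁ * N ^ 2)) ^ ((1 : ℝ) / (10 * N))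
        ≤ ((2 : ℝ) ^ (1 + c₁ * N ^ 2)) ^ (1 : ℝ) := by
          apply Real.rpow_le_rpow_of_exponent_le e7
          rw [div_le_one (by positivity)]
          linarith
      _ = _ := Real.rpow_one _
  calc (((2 : ℝ) ^ (3 * m * N) - ((2 : ℝ) ^ (3 * m * N))⁻¹) *
          (2 * 2 ^ (71 * N ^ 2) / ((2 : ℝ) ^ (c₁ * N ^ 2))⁻¹) + 1)
        * 2 ^ (10 * N + 1)
        * (2 * x / ((2 : ℝ) ^ (c₁ * N ^ 2))⁻¹) ^ ((1 : ℝ) / ((10 * N : ℕ) : ℝ))
      ≤ 2 ^ (3 * m * N + 2 + (71 + c₁) * N ^ 2) * 2 ^ (10 * N + 1)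
        * (2 ^ (1 + c₁ * N ^ 2) * x ^ (1 / (10 * N : ℝ))) := by
        have e8 : 0 ≤ ((2 : ℝ) * x / ((2 : ℝ) ^ (c₁ * N ^ 2))⁻¹) ^ ((1 : ℝ) / ((10 * N : ℕ) : ℝ)) :=
          by positivity
        gcongr
    _ = 2 ^ ((3 * m * N + 2 + (71 + c₁) * N ^ 2) + (10 * N + 1) + (1 + c₁ * N ^ 2))
        * x ^ (1 / (10 * N : ℝ)) := by
        rw [← mul_assoc, ← pow_add, ← pow_add]
    _ ≤ 2 ^ ((129 * m + 869) * N ^ 2) * x ^ (1 / (10 * N : ℝ)) := by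
        refine mul_le_mul_of_nonneg_right ?_ (by positivity)
        apply pow_le_pow_right₀ h2'
        have h5 : N ≤ N ^ 2 := by nlinarith
        have h6 : m * N ≤ m * N ^ 2 := Nat.mul_le_mul_left _ h5
        have h7 : (129 * m + 869) * N ^ 2 = 129 * (m * N ^ 2) + 869 * N ^ 2 := by ring
        have h8 : (3 * m * N + 2 + (71 + c₁) * N ^ 2) + (10 * N + 1) + (1 + c₁ * N ^ 2) =
            3 * (m * N) + 4 + 855 * N ^ 2 + 126 * (m * N ^ 2) + 10 * N := by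
          rw [hc₁]
          ring
        rw [h7, h8]
        omega

end Vale.Agent.P139.R2N
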