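import Vale.Agent.P139.R2.H959.NRQ
import Vale.Agent.P139.R2.H959.MeasQ
import Vale.Agent.P139.R2.H572.HighQ

/-! Row S1 closed. -/

set_option autoImplicit false

namespace Vale.Agent.P139.BN.H959

/-- **Row S1.** -/
theorem nrTail : NRTail :=
  R2N.nrTail_of (fun m _ => R2N.measSmallQ m) (fun m hm => R2.H572.highCasesQ m hm)

end Vale.Agent.P139.BN.H959
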