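import Vale.Agent.P139.R2.H959.Wt

/-! The size of the random datum in the capped weights. -/

set_option autoImplicit false

open Set Metric Filter Topology
open scoped NNReal ENNReal ComplexConjugate

namespace Vale.Agent.P139.R2P

open Vale.Agent.P139.A Vale.Agent.P139.A.WA

variable {d : ℕ}

lemma one_add_norm_sq_le (n : Lat d) : (1 + ‖n‖) ^ 2 ≤ 2 * (1 + sqNorm n) := by
  have h := sup_sq_le n
  nlinarith [sq_nonneg (1 - ‖n‖)]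

lemma W_le_pow (q : ℕ) (n : Lat d) : W (2 * q) n ≤ 2 ^ q * (1 + sqNorm n) ^ q := by
  unfold W
  rw [pow_mul, ← mul_pow]
  exact pow_le_pow_left₀ (by positivity) (one_add_norm_sq_le n) q

lemma inv_pow_le (n : Lat d) : ((1 + sqNorm n) ^ d)⁻¹ ≤ 2 ^ d * (W (2 * d) n)⁻¹ := by
  have h := W_le_pow d n
  have h1 : 0 < (1 + sqNorm n) ^ d := by
    have := sqNorm_nonneg n
    positivity
  have h2 := W_pos (k := 2 * d) n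
  rw [← one_div, ← div_eq_mul_inv, div_le_div_iff₀ h1 h2]
  linarith

/-- The weighted square sum of the random datum is `≤ A² 2^{-α/2}`. -/
theorem datum_sum_le {γ : Lat d → ℂ} (hs : Summable fun n => ‖γ n‖ * (W (2 * d) n)⁻¹)
    {K : ℕ} {R : ℝ} (hR1 : 16 * (K : ℝ) ^ 2 ≤ R) (hR2 : (2 : ℝ) ^ (2 * K + 1) ≤ R) (r : ℕ) :
    ∃ A : ℝ, 0 ≤ A ∧ ∀ α : ℝ, ((r + 3 * d : ℕ) : ℝ) ≤ α → ∀ F : Finset (Lat d), (0 : Lat d) ∉ F →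
      ∑ n ∈ F, ((2 : ℝ) ^ (α * ce K R n)) ^ 2 * (1 + sqNorm n) ^ r *
        ‖γ n * ((Real.sqrt (1 + sqNorm n) ^ (-α) : ℝ) : ℂ)‖ ^ 2 ≤ A * (2 : ℝ) ^ (-α / 2) := by
  set G : ℝ := ∑' n, ‖γ n‖ * (W (2 * d) n)⁻¹ with hG
  have hterm : ∀ n, 0 ≤ ‖γ n‖ * (W (2 * d) n)⁻¹ := fun n =>
    mul_nonneg (norm_nonneg _) (inv_pos.2 (W_pos n)).le
  have hG0 : 0 ≤ G := tsum_nonneg hterm
  have hγ : ∀ n, ‖γ n‖ ≤ G * W (2 * d) n := by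
    intro n
    have h1 : ‖γ n‖ * (W (2 * d) n)⁻¹ ≤ G := hs.le_tsum n fun j _ => hterm j
    have h2 := W_pos (k := 2 * d) n
    rwa [← div_eq_mul_inv, div_le_iff₀ h2] at h1
  set Z : ℝ := ∑' n : Lat d, (W (2 * d) n)⁻¹ with hZ
  have hZ0 : 0 ≤ Z := tsum_nonneg fun n => (inv_pos.2 (W_pos n)).le
  set a : ℕ := r + 3 * d with ha
  set B : ℝ := (2 : ℝ) ^ ((a : ℝ) * K) with hB
  have hB0 : 0 < B := by positivity
  refine ⟨(2 : ℝ) ^ ((a : ℝ) / 2) * B ^ 2 * (G ^ 2 * 2 ^ (2 * d) * 2 ^ d * Z), by positivity,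
    fun α hα F hF => ?_⟩
  have key : ∀ n ∈ F, ((2 : ℝ) ^ (α * ce K R n)) ^ 2 * (1 + sqNorm n) ^ r *
        ‖γ n * ((Real.sqrt (1 + sqNorm n) ^ (-α) : ℝ) : ℂ)‖ ^ 2 ≤
      ((2 : ℝ) ^ ((a : ℝ) / 2) * B ^ 2 * (G ^ 2 * 2 ^ (2 * d) * 2 ^ d)) * (2 : ℝ) ^ (-α / 2) *
        (W (2 * d) n)⁻¹ := by
    intro n hn
    have hn0 : n ≠ 0 := fun h => hF (h ▸ hn)
    have hs1 := one_le_sqNorm hn0
    have hp : 0 < 1 + sqNorm n := by linarith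
    have h1 := rpow_ce_le hR1 hR2 hn0 (α := α) (α₁ := a) (Nat.cast_nonneg _) hα
    have h2 : (Real.sqrt (1 + sqNorm n) ^ (-(a : ℝ))) ^ 2 = ((1 + sqNorm n) ^ a)⁻¹ := by
      rw [Real.rpow_neg (Real.sqrt_nonneg _), Real.rpow_natCast, inv_pow, ← pow_mul, mul_comm a 2,
        pow_mul, Real.sq_sqrt hp.le]
    have h3 : ‖γ n‖ ^ 2 ≤ G ^ 2 * (2 ^ (2 * d) * (1 + sqNorm n) ^ (2 * d)) := by
      have h4 : ‖γ n‖ ≤ G * (2 ^ d * (1 + sqNorm n) ^ d) :=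
        (hγ n).trans (mul_le_mul_of_nonneg_left (W_le_pow d n) hG0)
      calc ‖γ n‖ ^ 2 ≤ (G * (2 ^ d * (1 + sqNorm n) ^ d)) ^ 2 :=
            pow_le_pow_left₀ (norm_nonneg _) h4 2
        _ = _ := by ring
    have h5 : ((2 : ℝ) ^ (-(α - a) / 4)) ^ 2 = (2 : ℝ) ^ ((a : ℝ) / 2) * (2 : ℝ) ^ (-α / 2) := by
      rw [sq, ← Real.rpow_add (by norm_num), ← Real.rpow_add (by norm_num)]
      congr 1
      ring
    have h6 : (1 + sqNorm n) ^ r * ((1 + sqNorm n) ^ a)⁻¹ * (1 + sqNorm n) ^ (2 * d) =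
        ((1 + sqNorm n) ^ d)⁻¹ := by
      rw [ha]
      have : (1 + sqNorm n) ^ (r + 3 * d) = (1 + sqNorm n) ^ r * (1 + sqNorm n) ^ (2 * d) *
          (1 + sqNorm n) ^ d := by
        rw [← pow_add, ← pow_add]
        congr 1
        omega
      rw [this]
      have h7 : (1 + sqNorm n) ^ r ≠ 0 := by positivity
      have h8 : (1 + sqNorm n) ^ (2 * d) ≠ 0 := by positivity
      have h9 : (1 + sqNorm n) ^ d ≠ 0 := by positivity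
      field_simp
    have hJ : 0 ≤ Real.sqrt (1 + sqNorm n) ^ (-α) := Real.rpow_nonneg (Real.sqrt_nonneg _) _
    rw [norm_mul, Complex.norm_real, Real.norm_of_nonneg hJ, mul_pow]
    calc ((2 : ℝ) ^ (α * ce K R n)) ^ 2 * (1 + sqNorm n) ^ r *
          (‖γ n‖ ^ 2 * (Real.sqrt (1 + sqNorm n) ^ (-α)) ^ 2)
        = ((2 : ℝ) ^ (α * ce K R n) * Real.sqrt (1 + sqNorm n) ^ (-α)) ^ 2 *
            ((1 + sqNorm n) ^ r * ‖γ n‖ ^ 2) := by ring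
      _ ≤ ((2 : ℝ) ^ (-(α - a) / 4) * (B * Real.sqrt (1 + sqNorm n) ^ (-(a : ℝ)))) ^ 2 *
            ((1 + sqNorm n) ^ r * (G ^ 2 * (2 ^ (2 * d) * (1 + sqNorm n) ^ (2 * d)))) := by
          gcongr
      _ = ((2 : ℝ) ^ (-(α - a) / 4)) ^ 2 * B ^ 2 * (G ^ 2 * 2 ^ (2 * d)) *
            ((1 + sqNorm n) ^ r * (Real.sqrt (1 + sqNorm n) ^ (-(a : ℝ))) ^ 2 *
              (1 + sqNorm n) ^ (2 * d)) := by ring
      _ = ((2 : ℝ) ^ ((a : ℝ) / 2) * (2 : ℝ) ^ (-α / 2)) * B ^ 2 * (G ^ 2 * 2 ^ (2 * d)) *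
            ((1 + sqNorm n) ^ d)⁻¹ := by rw [h5, h2, h6]
      _ ≤ ((2 : ℝ) ^ ((a : ℝ) / 2) * (2 : ℝ) ^ (-α / 2)) * B ^ 2 * (G ^ 2 * 2 ^ (2 * d)) *
            (2 ^ d * (W (2 * d) n)⁻¹) := by
          have := inv_pow_le n
          gcongr
      _ = _ := by ring
  calc _ ≤ ∑ n ∈ F, ((2 : ℝ) ^ ((a : ℝ) / 2) * B ^ 2 * (G ^ 2 * 2 ^ (2 * d) * 2 ^ d)) *
        (2 : ℝ) ^ (-α / 2) * (W (2 * d) n)⁻¹ := Finset.sum_le_sum key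
    _ = ((2 : ℝ) ^ ((a : ℝ) / 2) * B ^ 2 * (G ^ 2 * 2 ^ (2 * d) * 2 ^ d)) *
        (2 : ℝ) ^ (-α / 2) * ∑ n ∈ F, (W (2 * d) n)⁻¹ := by rw [Finset.mul_sum]
    _ ≤ ((2 : ℝ) ^ ((a : ℝ) / 2) * B ^ 2 * (G ^ 2 * 2 ^ (2 * d) * 2 ^ d)) *
        (2 : ℝ) ^ (-α / 2) * Z := by
        have := (summable_W_inv d).sum_le_tsum F fun n _ => (inv_pos.2 (W_pos n)).le
        gcongr
    _ = _ := by ring

end Vale.Agent.P139.R2P
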