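import Vale.Agent.P139.Q836.QG2
import Vale.Agent.P139.R2.H959.NRLaw
import Mathlib.MeasureTheory.Measure.Hausdorff

/-! Row S1: quantitative law of `m |z|^(2m)`. -/

set_option autoImplicit false

open Set MeasureTheory
open scoped ENNReal NNReal

namespace Vale.Agent.P139.R2N

open Vale.Agent.P139.A (stdComplexGaussian)

/-- The measure of `{‖z‖ ∈ F}` for `F ⊆ (-∞, R]`. -/
theorem norm_vol_le {F : Set ℝ} {R : ℝ} (hR : 0 ≤ R) (hF : F ⊆ Iic R) :
    stdComplexGaussian {z : ℂ | ‖z‖ ∈ F} ≤ ENNReal.ofReal (8 * R) * volume F := by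
  set F' := toMeasurable volume F ∩ Iic R with hF'
  have hm : MeasurableSet F' := (measurableSet_toMeasurable _ _).inter measurableSet_Iic
  have h0 : volume F' ≤ volume F := by
    rw [← measure_toMeasurable F]
    exact measure_mono inter_subset_left
  have hsub : {z : ℂ | ‖z‖ ∈ F} ⊆ {z : ℂ | ‖z‖ ∈ F'} :=
    fun z hz => ⟨subset_toMeasurable _ _ hz, hF hz⟩
  have hmz : MeasurableSet {z : ℂ | ‖z‖ ∈ F'} := measurable_norm hm
  refine (measure_mono hsub).trans ((Vale.Agent.P139.Q836.Qg2.std_le hmz).trans ?_)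
  rw [← lintegral_indicator_one hmz, ← Complex.lintegral_comp_polarCoord_symm]
  have hmt : MeasurableSet (polarCoord.target) := polarCoord.open_target.measurableSet
  have hmF : MeasurableSet (F' ×ˢ (univ : Set ℝ)) := hm.prod MeasurableSet.univ
  calc ∫⁻ p in polarCoord.target, ENNReal.ofReal p.1 •
        ({z : ℂ | ‖z‖ ∈ F'} : Set ℂ).indicator 1 (Complex.polarCoord.symm p)
      ≤ ∫⁻ p in polarCoord.target, ENNReal.ofReal R *
        (F' ×ˢ (univ : Set ℝ)).indicator 1 p := by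
        refine setLIntegral_mono' hmt fun p hp => ?_
        have hp0 : 0 < p.1 := hp.1
        have h3 : ‖Complex.polarCoord.symm p‖ = p.1 := by
          rw [Complex.norm_polarCoord_symm]
          exact abs_of_pos hp0
        by_cases h4 : p.1 ∈ F'
        · have h5 : Complex.polarCoord.symm p ∈ {z : ℂ | ‖z‖ ∈ F'} := by
            rw [mem_ofPred_eq, h3]
            exact h4
          have h6 : p ∈ F' ×ˢ (univ : Set ℝ) := ⟨h4, mem_univ _⟩
          rw [indicator_of_mem h5, indicator_of_mem h6]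
          simp only [Pi.one_apply, smul_eq_mul, mul_one]
          exact ENNReal.ofReal_le_ofReal h4.2
        · have h5 : Complex.polarCoord.symm p ∉ {z : ℂ | ‖z‖ ∈ F'} := by
            rw [mem_ofPred_eq, h3]
            exact h4
          rw [indicator_of_notMem h5, smul_zero]
          exact zero_le
    _ = ENNReal.ofReal R * volume ((F' ×ˢ (univ : Set ℝ)) ∩ polarCoord.target) := by
        rw [lintegral_const_mul _ ((measurable_one.indicator hmF)), lintegral_indicator_one hmF,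
          Measure.restrict_apply hmF]
    _ ≤ ENNReal.ofReal R * volume (F' ×ˢ Ioo (-Real.pi) Real.pi) := by
        gcongr
        rintro p ⟨h1, h2⟩
        exact ⟨h1.1, h2.2⟩
    _ = ENNReal.ofReal R * (volume F' * ENNReal.ofReal (2 * Real.pi)) := by
        rw [Measure.volume_eq_prod, Measure.prod_prod, Real.volume_Ioo]
        congr 3
        ring
    _ ≤ ENNReal.ofReal R * (volume F * ENNReal.ofReal 8) := by
        gcongr
        linarith [Real.pi_le_four]
    _ = _ := by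
        rw [mul_comm (volume F), ← mul_assoc, ← ENNReal.ofReal_mul hR, mul_comm R]

/-- Expansion of `r ↦ m r^(2m)` away from `0`. -/
theorem expand {m : ℕ} (hm : 1 ≤ m) {δ r r' : ℝ} (hδ : 0 < δ) (hr : δ ≤ r) (hr' : δ ≤ r') :
    δ ^ (2 * m - 1) * |r - r'| ≤ |m * r ^ (2 * m) - m * r' ^ (2 * m)| := by
  have key : ∀ x y : ℝ, δ ≤ y → y ≤ x →
      δ ^ (2 * m - 1) * (x - y) ≤ m * x ^ (2 * m) - m * y ^ (2 * m) := by
    intro x y hy hxy
    have hm1 : (1 : ℝ) ≤ m := by exact_mod_cast hm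
    have h1 : 2 * m = (2 * m - 1) + 1 := by omega
    have h2 : x ^ (2 * m) - y ^ (2 * m) ≥ δ ^ (2 * m - 1) * (x - y) := by
      have h3 : x ^ (2 * m) = x ^ (2 * m - 1) * x := by rw [← pow_succ, ← h1]
      have h4 : y ^ (2 * m) = y ^ (2 * m - 1) * y := by rw [← pow_succ, ← h1]
      have h5 : y ^ (2 * m - 1) ≤ x ^ (2 * m - 1) := pow_le_pow_left₀ (by linarith) hxy _
      have h6 : δ ^ (2 * m - 1) ≤ x ^ (2 * m - 1) := pow_le_pow_left₀ hδ.le (by linarith) _
      rw [h3, h4]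
      have h7 : δ ^ (2 * m - 1) * (x - y) ≤ x ^ (2 * m - 1) * (x - y) :=
        mul_le_mul_of_nonneg_right h6 (by linarith)
      have h8 : y ^ (2 * m - 1) * y ≤ x ^ (2 * m - 1) * y :=
        mul_le_mul_of_nonneg_right h5 (by linarith)
      nlinarith
    have h9 : 0 ≤ δ ^ (2 * m - 1) * (x - y) := mul_nonneg (by positivity) (by linarith)
    nlinarith
  rcases le_total r' r with h | h
  · rw [abs_of_nonneg (by linarith)]
    exact (key r r' hr' h).trans (le_abs_self _)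
  · rw [abs_sub_comm r r', abs_of_nonneg (by linarith), abs_sub_comm (_ * r ^ _)]
    exact (key r' r hr h).trans (le_abs_self _)

/-- The probability that `m ‖z‖ ^ (2 m)` falls in `B` while `δ ≤ ‖z‖ ≤ δ⁻¹`. -/
theorem law_le {m : ℕ} (hm : 1 ≤ m) {δ : ℝ} (hδ : 0 < δ) (B : Set ℝ) :
    stdComplexGaussian {z : ℂ | δ ≤ ‖z‖ ∧ ‖z‖ ≤ δ⁻¹ ∧ (m : ℝ) * ‖z‖ ^ (2 * m) ∈ B} ≤
      ENNReal.ofReal (8 * δ⁻¹ ^ (2 * m)) * volume B := by
  set F : Set ℝ := {r : ℝ | δ ≤ r ∧ r ≤ δ⁻¹ ∧ (m : ℝ) * r ^ (2 * m) ∈ B} with hF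
  have h1 : stdComplexGaussian {z : ℂ | ‖z‖ ∈ F} ≤ ENNReal.ofReal (8 * δ⁻¹) * volume F :=
    norm_vol_le (by positivity) fun r hr => hr.2.1
  have hm0 : (0 : ℝ) < m := by exact_mod_cast hm
  let φ : ℝ → ℝ := fun r => m * r ^ (2 * m)
  let ψ : ℝ → ℝ := fun μ => (μ / m) ^ (((2 * m : ℕ) : ℝ)⁻¹)
  have hψφ : ∀ r, δ ≤ r → ψ (φ r) = r := by
    intro r hr
    simp only [ψ, φ]
    rw [mul_div_cancel_left₀ _ hm0.ne', Real.pow_rpow_inv_natCast (by linarith) (by omega)]
  set K : ℝ≥0 := Real.toNNReal (δ⁻¹ ^ (2 * m - 1)) with hK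
  have hlip : LipschitzOnWith K ψ (φ '' F) := by
    rw [lipschitzOnWith_iff_dist_le_mul]
    rintro _ ⟨r, hr, rfl⟩ _ ⟨r', hr', rfl⟩
    rw [hψφ r hr.1, hψφ r' hr'.1, Real.dist_eq, Real.dist_eq, hK,
      Real.coe_toNNReal _ (by positivity)]
    have h2 := expand hm hδ hr.1 hr'.1
    have h3 : 0 < δ ^ (2 * m - 1) := by positivity
    rw [inv_pow, ← div_eq_inv_mul, le_div_iff₀ h3]
    simp only [φ]
    linarith
  have h4 : volume F ≤ ENNReal.ofReal (δ⁻¹ ^ (2 * m - 1)) * volume B := by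
    have h5 : ψ '' (φ '' F) = F := by
      ext r
      constructor
      · rintro ⟨_, ⟨r', hr', rfl⟩, rfl⟩
        rw [hψφ r' hr'.1]
        exact hr'
      · intro hr
        exact ⟨φ r, ⟨r, hr, rfl⟩, hψφ r hr.1⟩
    have h6 := hlip.hausdorffMeasure_image_le (d := 1) zero_le_one
    rw [h5, hausdorffMeasure_real, ENNReal.rpow_one] at h6
    refine h6.trans ?_
    have h7 : (K : ℝ≥0∞) = ENNReal.ofReal (δ⁻¹ ^ (2 * m - 1)) := rfl
    rw [h7]
    gcongr
    rintro _ ⟨r, hr, rfl⟩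
    exact hr.2.2
  calc stdComplexGaussian {z : ℂ | δ ≤ ‖z‖ ∧ ‖z‖ ≤ δ⁻¹ ∧ (m : ℝ) * ‖z‖ ^ (2 * m) ∈ B}
      ≤ ENNReal.ofReal (8 * δ⁻¹) * volume F := h1
    _ ≤ ENNReal.ofReal (8 * δ⁻¹) * (ENNReal.ofReal (δ⁻¹ ^ (2 * m - 1)) * volume B) := by
        gcongr
    _ = _ := by
        rw [← mul_assoc, ← ENNReal.ofReal_mul (by positivity)]
        congr 2
        have h1 : 2 * m = (2 * m - 1) + 1 := by omega
        rw [h1, pow_succ, ← h1]
        ring

end Vale.Agent.P139.R2N
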