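import Vale.Agent.P139.R2.H959.NRMeas
import Vale.Agent.P139.R2.H959.NRDef2

/-! Row S1: union bound over the configurations, long interval. -/

set_option autoImplicit false

open Finset MeasureTheory
open scoped ENNReal

namespace Vale.Agent.P139.R2N

theorem meas_H1Q {m c N₁ : ℕ} (h : ∀ N ≥ N₁, ∀ j ≤ 10 * N, ∀ (s : Fin j → Bool) (lv : Fin j → ℕ),
      (∀ l, 1 ≤ lv l) → Low (4 ^ (N + 8)) s lv → ∀ q : ℤ, ∀ x : ℝ, 0 < x → x ≤ 1 →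
        volume {μ : ℝ | μ ∈ InQ m N ∧ |ss μ s lv + q| < x} ≤
          ENNReal.ofReal ((2 : ℝ) ^ (c * N ^ 2) * x ^ (1 / (10 * N : ℝ)))) {N : ℕ} (hN : N₁ ≤ N) :
    volume {μ : ℝ | μ ∈ InQ m N ∧ ¬ H1Q m N μ} ≤
      ((2 ^ (20 * N ^ 2 + 171 * N + (3 * m + 5) * N + 6) : ℕ) : ℝ≥0∞) * ENNReal.ofReal ((2 : ℝ) ^ (c * N ^ 2) *
        (((2 : ℝ) ^ (N ^ 4))⁻¹) ^ (1 / (10 * N : ℝ))) := by
  set C : ℝ≥0∞ := ENNReal.ofReal ((2 : ℝ) ^ (c * N ^ 2) *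
        (((2 : ℝ) ^ (N ^ 4))⁻¹) ^ (1 / (10 * N : ℝ))) with hC
  let S : ∀ (j : Fin (10 * N + 1)) (s : Fin j → Bool) (lv : Fin j → Fin (4 ^ (N + 8)))
      (q : Finset.Icc (-(2 : ℤ) ^ ((3 * m + 5) * N)) (2 ^ ((3 * m + 5) * N))), Set ℝ := fun j s lv q =>
    {μ : ℝ | μ ∈ InQ m N ∧ (∀ l, 1 ≤ (lv l : ℕ)) ∧ Low (4 ^ (N + 8)) s (fun l => (lv l : ℕ)) ∧
      |ss μ s (fun l => (lv l : ℕ)) + ((q : ℤ) : ℝ)| < ((2 : ℝ) ^ (N ^ 4))⁻¹}
  have hx0 : (0 : ℝ) < ((2 : ℝ) ^ (N ^ 4))⁻¹ := by positivity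
  have hx1 : ((2 : ℝ) ^ (N ^ 4))⁻¹ ≤ 1 := inv_le_one_of_one_le₀ (one_le_pow₀ (by norm_num))
  have hsub : {μ : ℝ | μ ∈ InQ m N ∧ ¬ H1Q m N μ} ⊆ ⋃ j, ⋃ s, ⋃ lv, ⋃ q, S j s lv q := by
    rintro μ ⟨hμ, hn⟩
    unfold H1Q at hn
    push Not at hn
    obtain ⟨j, hj, s, lv, h1, h2, h3, q, hq, h4⟩ := hn
    simp only [Set.mem_iUnion]
    refine ⟨⟨j, by omega⟩, s, fun l => ⟨lv l, h2 l⟩, ⟨q, ?_⟩, hμ, h1, h3, h4⟩
    rw [Finset.mem_Icc]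
    exact abs_le.1 hq
  have hS : ∀ j s lv q, volume (S j s lv q) ≤ C := by
    intro j s lv q
    by_cases h1 : (∀ l, 1 ≤ (lv l : ℕ)) ∧ Low (4 ^ (N + 8)) s (fun l => (lv l : ℕ))
    · refine (measure_mono ?_).trans
        (h N hN j (by omega) s (fun l => (lv l : ℕ)) h1.1 h1.2 q _ hx0 hx1)
      rintro μ ⟨hμ, -, -, h4⟩
      exact ⟨hμ, h4⟩
    · have : S j s lv q = ∅ := by
        ext μ
        simp only [S, Set.mem_ofPred_eq, Set.mem_empty_iff_false, iff_false]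
        rintro ⟨-, h2, h3, -⟩
        exact h1 ⟨h2, h3⟩
      rw [this]
      simp
  refine (measure_mono hsub).trans ?_
  have c1 : ∀ j s lv, volume (⋃ q, S j s lv q) ≤ ((2 ^ ((3 * m + 5) * N + 2) : ℕ) : ℝ≥0∞) * C := by
    intro j s lv
    refine vol_iUnion_le _ _ _ ?_ (hS j s lv)
    rw [Fintype.card_coe, Int.card_Icc]
    have h1 : (1 : ℤ) ≤ 2 ^ ((3 * m + 5) * N) := one_le_pow₀ (by norm_num)
    have h2 : ((2 : ℤ) ^ ((3 * m + 5) * N) + 1 - -(2 : ℤ) ^ ((3 * m + 5) * N)) ≤ ((2 ^ ((3 * m + 5) * N + 2) : ℕ) : ℤ) := by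
      push_cast
      rw [pow_add]
      linarith
    omega
  have c2 : ∀ j s, volume (⋃ lv, ⋃ q, S j s lv q) ≤
      ((2 ^ ((2 * N + 16) * (10 * N)) : ℕ) : ℝ≥0∞) * (((2 ^ ((3 * m + 5) * N + 2) : ℕ) : ℝ≥0∞) * C) := by
    intro j s
    refine vol_iUnion_le _ _ _ ?_ (c1 j s)
    rw [Fintype.card_fun, Fintype.card_fin, Fintype.card_fin]
    have h1 : (4 : ℕ) ^ (N + 8) = 2 ^ (2 * N + 16) := by
      rw [show (4 : ℕ) = 2 ^ 2 by norm_num, ← pow_mul]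
      congr 1
    rw [h1, ← pow_mul]
    apply Nat.pow_le_pow_right (by norm_num)
    exact Nat.mul_le_mul_left _ (by omega)
  have c3 : ∀ j, volume (⋃ s, ⋃ lv, ⋃ q, S j s lv q) ≤
      ((2 ^ (10 * N) : ℕ) : ℝ≥0∞) * (((2 ^ ((2 * N + 16) * (10 * N)) : ℕ) : ℝ≥0∞) *
        (((2 ^ ((3 * m + 5) * N + 2) : ℕ) : ℝ≥0∞) * C)) := by
    intro j
    refine vol_iUnion_le _ _ _ ?_ (c2 j)
    rw [Fintype.card_fun, Fintype.card_fin, Fintype.card_bool]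
    exact Nat.pow_le_pow_right (by norm_num) (by omega)
  refine (vol_iUnion_le _ (2 ^ (N + 4)) _ ?_ c3).trans (le_of_eq ?_)
  · rw [Fintype.card_fin]
    exact ten_le N
  · rw [← mul_assoc, ← mul_assoc, ← mul_assoc]
    congr 1
    norm_cast
    rw [← pow_add, ← pow_add, ← pow_add]
    congr 1
    ring

theorem meas_H2Q {m c N₁ : ℕ} (h : ∀ N ≥ N₁, ∀ j ≤ 10 * N, ∀ (s : Fin j → Bool) (lv : Fin j → ℕ),
      (∀ l, 1 ≤ lv l) → Low (4 ^ (N + 8)) s lv → ∀ q : ℤ, ∀ x : ℝ, 0 < x → x ≤ 1 →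
        volume {μ : ℝ | μ ∈ InQ m N ∧ |ss μ s lv + q| < x} ≤
          ENNReal.ofReal ((2 : ℝ) ^ (c * N ^ 2) * x ^ (1 / (10 * N : ℝ)))) {N : ℕ} (hN : N₁ ≤ N)
    (hN1 : 1 ≤ N) :
    volume {μ : ℝ | μ ∈ InQ m N ∧ ¬ H2 N μ} ≤
      ((2 ^ (4 * N ^ 4 + 20 * N ^ 2 + 173 * N + 12) : ℕ) : ℝ≥0∞) *
        ENNReal.ofReal ((2 : ℝ) ^ (c * N ^ 2) *
        (2 * ((2 : ℝ) ^ (N ^ 6))⁻¹) ^ (1 / (10 * N : ℝ))) := by
  set C : ℝ≥0∞ := ENNReal.ofReal ((2 : ℝ) ^ (c * N ^ 2) *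
        (2 * ((2 : ℝ) ^ (N ^ 6))⁻¹) ^ (1 / (10 * N : ℝ))) with hC
  let up : ∀ (j : Fin (10 * N + 1)) (lv : Fin j → Fin (4 ^ (N + 8))) (p : Fin j × Fin j)
      (ab : Fin (2 ^ (2 * N ^ 4)) × Fin (2 ^ (2 * N ^ 4))), Fin j → ℕ := fun j lv p ab =>
    Function.update (Function.update (fun l => (lv l : ℕ)) p.1 (ab.1 : ℕ)) p.2 (ab.2 : ℕ)
  let S : ∀ (j : Fin (10 * N + 1)) (s : Fin j → Bool) (lv : Fin j → Fin (4 ^ (N + 8)))
      (p : Fin j × Fin j) (ab : Fin (2 ^ (2 * N ^ 4)) × Fin (2 ^ (2 * N ^ 4))), Set ℝ :=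
    fun j s lv p ab =>
    {μ : ℝ | μ ∈ InQ m N ∧ (∀ l, 1 ≤ up j lv p ab l) ∧ Low (4 ^ (N + 8)) s (up j lv p ab) ∧
      |ss μ s (up j lv p ab)| < 2 * ((2 : ℝ) ^ (N ^ 6))⁻¹}
  have hx0 : (0 : ℝ) < 2 * ((2 : ℝ) ^ (N ^ 6))⁻¹ := by positivity
  have hx1 : 2 * ((2 : ℝ) ^ (N ^ 6))⁻¹ ≤ 1 := by
    have h1 : (2 : ℝ) ^ 1 ≤ (2 : ℝ) ^ (N ^ 6) :=
      pow_le_pow_right₀ (by norm_num) (Nat.one_le_pow _ _ (by omega))
    rw [← div_eq_mul_inv, div_le_one (by positivity)]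
    linarith
  have hL0 : 0 < 4 ^ (N + 8) := by positivity
  have hsub : {μ : ℝ | μ ∈ InQ m N ∧ ¬ H2 N μ} ⊆ ⋃ j, ⋃ s, ⋃ lv, ⋃ p, ⋃ ab, S j s lv p ab := by
    rintro μ ⟨hμ, hn⟩
    unfold H2 at hn
    push Not at hn
    obtain ⟨j, hj, s, lv, h1, h2, h3, h4, h5⟩ := hn
    obtain ⟨l0⟩ : Nonempty (Fin j) := by
      rcases Nat.eq_zero_or_pos j with hj0 | hj0
      · subst hj0
        exfalso
        obtain ⟨ν, -, hν⟩ := h4
        apply hν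
        unfold BalAt
        rw [Finset.card_eq_zero.2, Finset.card_eq_zero.2]
        · ext l; exact l.elim0
        · ext l; exact l.elim0
      · exact ⟨⟨0, hj0⟩⟩
    obtain ⟨p1, p2, hp⟩ : ∃ p1 p2 : Fin j, ∀ l, 4 ^ (N + 8) ≤ lv l → l = p1 ∨ l = p2 := by
      unfold Two at h3
      rcases Nat.lt_or_ge (univ.filter fun l => 4 ^ (N + 8) ≤ lv l).card 1 with hc | hc
      · refine ⟨l0, l0, fun l hl => ?_⟩
        have : l ∈ univ.filter fun l => 4 ^ (N + 8) ≤ lv l := by simp [hl]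
        have h6 := Finset.card_pos.2 ⟨l, this⟩
        omega
      rcases Nat.lt_or_ge (univ.filter fun l => 4 ^ (N + 8) ≤ lv l).card 2 with hc2 | hc2
      · obtain ⟨x, hx⟩ := Finset.card_eq_one.1 (by omega :
          (univ.filter fun l => 4 ^ (N + 8) ≤ lv l).card = 1)
        refine ⟨x, x, fun l hl => ?_⟩
        have : l ∈ univ.filter fun l => 4 ^ (N + 8) ≤ lv l := by simp [hl]
        rw [hx, Finset.mem_singleton] at this
        exact Or.inl this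
      · obtain ⟨x, y, -, hx⟩ := Finset.card_eq_two.1 (by omega :
          (univ.filter fun l => 4 ^ (N + 8) ≤ lv l).card = 2)
        refine ⟨x, y, fun l hl => ?_⟩
        have : l ∈ univ.filter fun l => 4 ^ (N + 8) ≤ lv l := by simp [hl]
        rw [hx, Finset.mem_insert, Finset.mem_singleton] at this
        exact this
    have hlow : ∀ l, ¬ (l = p1 ∨ l = p2) → lv l < 4 ^ (N + 8) := by
      intro l hl
      by_contra hcon
      exact hl (hp l (by omega))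
    let lv0 : Fin j → Fin (4 ^ (N + 8)) := fun l =>
      if hl : l = p1 ∨ l = p2 then ⟨0, hL0⟩ else ⟨lv l, hlow l hl⟩
    have hup : up ⟨j, by omega⟩ lv0 (p1, p2) (⟨lv p1, h2 p1⟩, ⟨lv p2, h2 p2⟩) = lv := by
      funext l
      simp only [up]
      by_cases e2 : l = p2
      · subst e2
        simp
      rw [Function.update_of_ne e2]
      by_cases e1 : l = p1
      · subst e1
        simp
      rw [Function.update_of_ne e1]
      simp only [lv0]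
      rw [dif_neg]
      rintro (h | h)
      · exact e1 h
      · exact e2 h
    simp only [Set.mem_iUnion]
    refine ⟨⟨j, by omega⟩, s, lv0, (p1, p2), (⟨lv p1, h2 p1⟩, ⟨lv p2, h2 p2⟩), ?_⟩
    simp only [S]
    rw [hup]
    exact ⟨hμ, h1, h4, h5⟩
  have hS : ∀ j s lv p ab, volume (S j s lv p ab) ≤ C := by
    intro j s lv p ab
    by_cases h1 : (∀ l, 1 ≤ up j lv p ab l) ∧ Low (4 ^ (N + 8)) s (up j lv p ab)
    · have h2 := h N hN j (by omega) s (up j lv p ab) h1.1 h1.2 0 _ hx0 hx1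
      refine (measure_mono ?_).trans h2
      rintro μ ⟨hμ, -, -, h4⟩
      refine ⟨hμ, ?_⟩
      simpa using h4
    · have : S j s lv p ab = ∅ := by
        ext μ
        simp only [S, Set.mem_ofPred_eq, Set.mem_empty_iff_false, iff_false]
        rintro ⟨-, h2, h3, -⟩
        exact h1 ⟨h2, h3⟩
      rw [this]
      simp
  refine (measure_mono hsub).trans ?_
  have c0 : ∀ j s lv p, volume (⋃ ab, S j s lv p ab) ≤ ((2 ^ (4 * N ^ 4) : ℕ) : ℝ≥0∞) * C := by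
    intro j s lv p
    refine vol_iUnion_le _ _ _ ?_ (hS j s lv p)
    rw [Fintype.card_prod, Fintype.card_fin, ← pow_add]
    apply Nat.pow_le_pow_right (by norm_num)
    omega
  have c1 : ∀ j s lv, volume (⋃ p, ⋃ ab, S j s lv p ab) ≤
      ((2 ^ (2 * (N + 4)) : ℕ) : ℝ≥0∞) * (((2 ^ (4 * N ^ 4) : ℕ) : ℝ≥0∞) * C) := by
    intro j s lv
    refine vol_iUnion_le _ _ _ ?_ (c0 j s lv)
    rw [Fintype.card_prod, Fintype.card_fin, two_mul, pow_add]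
    have := ten_le N
    exact Nat.mul_le_mul (by omega) (by omega)
  have c2 : ∀ j s, volume (⋃ lv, ⋃ p, ⋃ ab, S j s lv p ab) ≤
      ((2 ^ ((2 * N + 16) * (10 * N)) : ℕ) : ℝ≥0∞) *
        (((2 ^ (2 * (N + 4)) : ℕ) : ℝ≥0∞) * (((2 ^ (4 * N ^ 4) : ℕ) : ℝ≥0∞) * C)) := by
    intro j s
    refine vol_iUnion_le _ _ _ ?_ (c1 j s)
    rw [Fintype.card_fun, Fintype.card_fin, Fintype.card_fin]
    have h1 : (4 : ℕ) ^ (N + 8) = 2 ^ (2 * N + 16) := by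
      rw [show (4 : ℕ) = 2 ^ 2 by norm_num, ← pow_mul]
      congr 1
    rw [h1, ← pow_mul]
    apply Nat.pow_le_pow_right (by norm_num)
    exact Nat.mul_le_mul_left _ (by omega)
  have c3 : ∀ j, volume (⋃ s, ⋃ lv, ⋃ p, ⋃ ab, S j s lv p ab) ≤
      ((2 ^ (10 * N) : ℕ) : ℝ≥0∞) * (((2 ^ ((2 * N + 16) * (10 * N)) : ℕ) : ℝ≥0∞) *
        (((2 ^ (2 * (N + 4)) : ℕ) : ℝ≥0∞) * (((2 ^ (4 * N ^ 4) : ℕ) : ℝ≥0∞) * C))) := by
    intro j
    refine vol_iUnion_le _ _ _ ?_ (c2 j)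
    rw [Fintype.card_fun, Fintype.card_fin, Fintype.card_bool]
    exact Nat.pow_le_pow_right (by norm_num) (by omega)
  refine (vol_iUnion_le _ (2 ^ (N + 4)) _ ?_ c3).trans (le_of_eq ?_)
  · rw [Fintype.card_fin]
    exact ten_le N
  · rw [← mul_assoc, ← mul_assoc, ← mul_assoc, ← mul_assoc]
    congr 1
    norm_cast
    rw [← pow_add, ← pow_add, ← pow_add, ← pow_add]
    congr 1
    ring

/-- The exceptional set at step `N` has measure at most `2 ^ (-(2 m + 6) N)`. -/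
theorem meas_badQ {m : ℕ} (hD : MeasSmallQ m) : ∃ N₃ : ℕ, ∀ N ≥ N₃,
    volume {μ : ℝ | μ ∈ InQ m N ∧ ¬ (H1Q m N μ ∧ H2 N μ)} ≤
      ENNReal.ofReal ((2 : ℝ) ^ (-((2 * m + 6 : ℝ) * N))) := by
  obtain ⟨c, N₁, h⟩ := hD
  refine ⟨max N₁ (10 * (c + 5 * m + 300)), fun N hN => ?_⟩
  have hN1 : N₁ ≤ N := le_trans (le_max_left _ _) hN
  have hN2 : 10 * (c + 5 * m + 300) ≤ N := le_trans (le_max_right _ _) hN
  have hN3 : 1 ≤ N := by omega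
  have hNr : (1 : ℝ) ≤ N := by exact_mod_cast hN3
  have hNc : (10 : ℝ) * (c + 5 * m + 300) ≤ N := by exact_mod_cast hN2
  have hc0 : (0 : ℝ) ≤ c := Nat.cast_nonneg _
  have hm0 : (0 : ℝ) ≤ m := Nat.cast_nonneg _
  have e1 := meas_H1Q h hN1
  have e2 := meas_H2Q h hN1 hN3
  have hsub : {μ : ℝ | μ ∈ InQ m N ∧ ¬ (H1Q m N μ ∧ H2 N μ)} ⊆
      {μ : ℝ | μ ∈ InQ m N ∧ ¬ H1Q m N μ} ∪ {μ : ℝ | μ ∈ InQ m N ∧ ¬ H2 N μ} := by
    rintro μ ⟨h1, h2⟩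
    by_cases h3 : H1Q m N μ
    · exact Or.inr ⟨h1, fun h4 => h2 ⟨h3, h4⟩⟩
    · exact Or.inl ⟨h1, h3⟩
  have hNN : (N : ℝ) ≤ N ^ 2 := by nlinarith
  have hmN : (m : ℝ) * N ≤ m * N ^ 2 := mul_le_mul_of_nonneg_left hNN hm0
  have p1 : ((2 ^ (20 * N ^ 2 + 171 * N + (3 * m + 5) * N + 6) : ℕ) : ℝ≥0∞) *
        ENNReal.ofReal ((2 : ℝ) ^ (c * N ^ 2) *
        (((2 : ℝ) ^ (N ^ 4))⁻¹) ^ (1 / (10 * N : ℝ))) ≤
        ENNReal.ofReal ((2 : ℝ) ^ (-((2 * m + 6 : ℝ) * N) - 1)) := by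
    rw [← ENNReal.ofReal_natCast, ← ENNReal.ofReal_mul (by positivity)]
    apply ENNReal.ofReal_le_ofReal
    push_cast
    rw [← Real.rpow_natCast, ← Real.rpow_natCast, ← Real.rpow_natCast, ← Real.rpow_neg (by norm_num),
      ← Real.rpow_mul (by norm_num), ← Real.rpow_add (by norm_num), ← Real.rpow_add (by norm_num)]
    apply Real.rpow_le_rpow_of_exponent_le (by norm_num)
    push_cast
    have h5 : -(N : ℝ) ^ 4 * (1 / (10 * N)) = -(N : ℝ) ^ 3 / 10 := by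
      field_simp
    rw [h5]
    have h6 : (10 : ℝ) * (c + 5 * m + 300) * N ^ 2 ≤ N * N ^ 2 :=
      mul_le_mul_of_nonneg_right hNc (by positivity)
    nlinarith
  have p2 : ((2 ^ (4 * N ^ 4 + 20 * N ^ 2 + 173 * N + 12) : ℕ) : ℝ≥0∞) *
        ENNReal.ofReal ((2 : ℝ) ^ (c * N ^ 2) *
        (2 * ((2 : ℝ) ^ (N ^ 6))⁻¹) ^ (1 / (10 * N : ℝ))) ≤
        ENNReal.ofReal ((2 : ℝ) ^ (-((2 * m + 6 : ℝ) * N) - 1)) := by
    rw [← ENNReal.ofReal_natCast, ← ENNReal.ofReal_mul (by positivity)]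
    apply ENNReal.ofReal_le_ofReal
    have h4 : (2 : ℝ) * ((2 : ℝ) ^ (N ^ 6))⁻¹ = (2 : ℝ) ^ (1 - (N : ℝ) ^ 6) := by
      rw [sub_eq_add_neg, Real.rpow_add (by norm_num), Real.rpow_one, Real.rpow_neg (by norm_num)]
      congr 2
      rw [← Real.rpow_natCast]
      push_cast
      rfl
    rw [h4]
    push_cast
    rw [← Real.rpow_natCast, ← Real.rpow_natCast,
      ← Real.rpow_mul (by norm_num), ← Real.rpow_add (by norm_num), ← Real.rpow_add (by norm_num)]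
    apply Real.rpow_le_rpow_of_exponent_le (by norm_num)
    push_cast
    have h5 : (1 - (N : ℝ) ^ 6) * (1 / (10 * N)) = 1 / (10 * N) - (N : ℝ) ^ 5 / 10 := by
      field_simp
    rw [h5]
    have h8 : 1 / (10 * (N : ℝ)) ≤ 1 := by
      rw [div_le_one (by positivity)]
      linarith
    have h6 : (10 : ℝ) * (c + 5 * m + 300) * N ^ 4 ≤ N * N ^ 4 :=
      mul_le_mul_of_nonneg_right hNc (by positivity)
    have h9 : (N : ℝ) ^ 2 ≤ N ^ 4 := by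
      have : (N : ℝ) ^ 4 = N ^ 2 * N ^ 2 := by ring
      nlinarith
    have h10 : (c : ℝ) * N ^ 2 ≤ c * N ^ 4 := mul_le_mul_of_nonneg_left h9 hc0
    have h11 : (m : ℝ) * N ^ 2 ≤ m * N ^ 4 := mul_le_mul_of_nonneg_left h9 hm0
    nlinarith
  refine (measure_mono hsub).trans ((measure_union_le _ _).trans ?_)
  refine (add_le_add (e1.trans p1) (e2.trans p2)).trans (le_of_eq ?_)
  rw [← ENNReal.ofReal_add (by positivity) (by positivity)]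
  congr 1
  rw [← two_mul, Real.rpow_sub (by norm_num), Real.rpow_one]
  ring

end Vale.Agent.P139.R2N
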