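import Vale.Agent.P139.R2.H959.NRMain
import Vale.Agent.P139.R2.H959.NRMeasQ
import Vale.Agent.P139.R2.H959.NRLawQ
import Vale.Agent.P139.R2.H556.Defs2

/-! Row S1 (stage 2): the exceptional set of the nonresonance has probability at most
`2 ^ (-N)`. -/

set_option autoImplicit false

open Finset MeasureTheory Filter Topology
open scoped ENNReal

namespace Vale.Agent.P139.R2N

open Vale.Agent.P139.H212 (om om_sq om_nonneg)
open Vale.Agent.P139.A (stdComplexGaussian)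

lemma ten_le' {N : ℕ} (hN : 6 ≤ N) : (10 * N : ℝ) ≤ (2 : ℝ) ^ N := by
  have h11 : ∀ n : ℕ, 6 ≤ n → 10 * n ≤ 2 ^ n := by
    intro n hn
    induction n, hn using Nat.le_induction with
    | base => norm_num
    | succ n hn ih =>
      rw [pow_succ]
      omega
  exact_mod_cast h11 N hN

/-- Perturbation in the frequency parameter. -/
theorem nonRes_of {m N : ℕ} (hN : 6 ≤ N) (hNm : 3 * m * N ≤ N ^ 6) {μ₀ : ℝ} (hin : μ₀ ∈ InQ m N)
    (h7 : ∀ j ≤ 10 * N, ∀ (s : Fin j → Bool) (lv : Fin j → ℕ), (∀ l, 1 ≤ lv l) →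
      Two (4 ^ (N + 8)) lv → ¬ (∀ ν, BalAt s lv ν) → 2 * ((2 : ℝ) ^ (N ^ 6))⁻¹ ≤ |ss μ₀ s lv|) :
    BN.NonRes N μ₀ := by
  intro μ hμN j hj s lv h1 hTwo hnb
  have h7 := h7 j hj s lv h1 hTwo hnb
  have hδ : ((2 : ℝ) ^ (N ^ 6 + N))⁻¹ = ((2 : ℝ) ^ (N ^ 6))⁻¹ * ((2 : ℝ) ^ N)⁻¹ := by
    rw [pow_add, mul_inv]
  have h10 := ten_le' hN
  have hpos : 0 ≤ μ₀ := le_trans (by positivity) hin.1
  have hμ0 : 0 ≤ μ := by
    have h12 : ((2 : ℝ) ^ (N ^ 6 + N))⁻¹ ≤ ((2 : ℝ) ^ (3 * m * N))⁻¹ := by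
      apply inv_anti₀ (by positivity)
      exact pow_le_pow_right₀ (by norm_num) (by omega)
    have h13 := (abs_le.1 hμN).1
    have h14 := hin.1
    linarith
  have h8 := ss_lip hμ0 hpos s lv
  have h9 : (j : ℝ) * |μ - μ₀| ≤ ((2 : ℝ) ^ (N ^ 6))⁻¹ := by
    have hj' : (j : ℝ) ≤ 10 * N := by exact_mod_cast hj
    calc (j : ℝ) * |μ - μ₀| ≤ (2 : ℝ) ^ N * ((2 : ℝ) ^ (N ^ 6 + N))⁻¹ :=
          mul_le_mul (hj'.trans h10) hμN (abs_nonneg _) (by positivity)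
      _ = ((2 : ℝ) ^ (N ^ 6))⁻¹ := by
          rw [hδ]
          have : (2 : ℝ) ^ N ≠ 0 := by positivity
          field_simp
  have h15 : |ss μ₀ s lv| ≤ |ss μ s lv| + |ss μ s lv - ss μ₀ s lv| := by
    have : ss μ₀ s lv = ss μ s lv - (ss μ s lv - ss μ₀ s lv) := by ring
    calc |ss μ₀ s lv| = |ss μ s lv - (ss μ s lv - ss μ₀ s lv)| := by rw [← this]
      _ ≤ _ := abs_sub _ _
  show ((2 : ℝ) ^ (N ^ 6))⁻¹ ≤ |ss μ s lv|
  linarith

/-- Small values of the norm. -/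
theorem small_norm {N : ℕ} (hN : 4 ≤ N) :
    stdComplexGaussian {z : ℂ | ‖z‖ < ((2 : ℝ) ^ N)⁻¹} ≤
      ENNReal.ofReal (((2 : ℝ) ^ N)⁻¹ / 4) := by
  have hm : MeasurableSet {z : ℂ | ‖z‖ < ((2 : ℝ) ^ N)⁻¹} :=
    measurableSet_lt measurable_norm measurable_const
  refine (Vale.Agent.P139.Q836.Qg2.std_le hm).trans ?_
  have h1 : {z : ℂ | ‖z‖ < ((2 : ℝ) ^ N)⁻¹} = Metric.ball 0 ((2 : ℝ) ^ N)⁻¹ := by
    ext z
    simp
  rw [h1, Complex.volume_ball, ← ENNReal.ofReal_coe_nnreal, ← ENNReal.ofReal_pow (by positivity),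
    ← ENNReal.ofReal_mul (by positivity)]
  apply ENNReal.ofReal_le_ofReal
  have h2 : (16 : ℝ) ≤ (2 : ℝ) ^ N := by
    calc (16 : ℝ) = 2 ^ 4 := by norm_num
      _ ≤ 2 ^ N := pow_le_pow_right₀ (by norm_num) hN
  have h3 : ((2 : ℝ) ^ N)⁻¹ ≤ 1 / 16 := by
    rw [inv_eq_one_div]
    exact one_div_le_one_div_of_le (by norm_num) h2
  have h4 : 0 < ((2 : ℝ) ^ N)⁻¹ := by positivity
  have h5 := Real.pi_le_four
  have h6 : ((NNReal.pi : NNReal) : ℝ) = Real.pi := rfl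
  rw [h6, sq]
  nlinarith [mul_nonneg h4.le h4.le, Real.pi_pos]

/-- Large values of the norm. -/
theorem large_norm {N : ℕ} (hN : 5 ≤ N) :
    stdComplexGaussian {z : ℂ | (2 : ℝ) ^ N < ‖z‖} ≤ ENNReal.ofReal (((2 : ℝ) ^ N)⁻¹ / 4) := by
  refine (Vale.Agent.P139.std_tail (by positivity)).trans (ENNReal.ofReal_le_ofReal ?_)
  have h2 : (32 : ℝ) ≤ (2 : ℝ) ^ N := by
    calc (32 : ℝ) = 2 ^ 5 := by norm_num
      _ ≤ 2 ^ N := pow_le_pow_right₀ (by norm_num) hN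
  set x : ℝ := (2 : ℝ) ^ N with hx
  have h3 : Real.exp (-x ^ 2 / 2) ≤ (x ^ 2 / 2)⁻¹ := by
    rw [neg_div, Real.exp_neg]
    apply inv_anti₀ (by positivity)
    have := Real.add_one_le_exp (x ^ 2 / 2)
    linarith
  have hx0 : 0 < x := by positivity
  calc 4 * Real.exp (-x ^ 2 / 2) ≤ 4 * (x ^ 2 / 2)⁻¹ := by gcongr
    _ ≤ x⁻¹ / 4 := by
        rw [inv_div, inv_eq_one_div, mul_div_assoc', div_div, div_le_div_iff₀ (by positivity)
          (by positivity)]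
        ring_nf
        nlinarith [mul_nonneg hx0.le hx0.le]

/-- **Row S1** from the measure estimate (D) and the case analysis (E). -/
theorem nrTail_of (hD : ∀ m, 1 ≤ m → MeasSmallQ m) (hE : ∀ m, 1 ≤ m → HighCasesQ m) :
    BN.NRTail := by
  intro m hm
  obtain ⟨N₃, h3⟩ := meas_badQ (hD m hm)
  obtain ⟨N₂, h2⟩ := hE m hm
  refine ⟨N₃ + N₂ + 3 * m + 6, fun N hN => ?_⟩
  have hN6 : 6 ≤ N := by omega
  have hNm : 3 * m * N ≤ N ^ 6 := by
    have h1 : 3 * m ≤ N := by omega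
    have h2 : N * N ≤ N ^ 6 := by
      calc N * N = N ^ 2 := by ring
        _ ≤ N ^ 6 := Nat.pow_le_pow_right (by omega) (by norm_num)
    exact (Nat.mul_le_mul_right N h1).trans h2
  set δ : ℝ := ((2 : ℝ) ^ N)⁻¹ with hδ
  have hδ0 : 0 < δ := by positivity
  have hδi : δ⁻¹ = (2 : ℝ) ^ N := by rw [hδ, inv_inv]
  set B : Set ℝ := {μ : ℝ | μ ∈ InQ m N ∧ ¬ (H1Q m N μ ∧ H2 N μ)} with hB
  have hm0 : (0 : ℝ) < m := by exact_mod_cast hm
  have hm1 : (1 : ℝ) ≤ m := by exact_mod_cast hm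
  have hin : ∀ r : ℝ, δ ≤ r → r ≤ δ⁻¹ → (m : ℝ) * r ^ (2 * m) ∈ InQ m N := by
    intro r hr hr'
    have hr0 : 0 < r := lt_of_lt_of_le hδ0 hr
    constructor
    · calc ((2 : ℝ) ^ (3 * m * N))⁻¹ ≤ ((2 : ℝ) ^ (N * (2 * m)))⁻¹ := by
            apply inv_anti₀ (by positivity)
            apply pow_le_pow_right₀ (by norm_num)
            nlinarith [Nat.zero_le (m * N)]
        _ = δ ^ (2 * m) := by rw [hδ, inv_pow, pow_mul]
        _ ≤ r ^ (2 * m) := pow_le_pow_left₀ hδ0.le hr _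
        _ ≤ m * r ^ (2 * m) := le_mul_of_one_le_left (by positivity) hm1
    · have h5 : r ^ (2 * m) ≤ (2 : ℝ) ^ (N * (2 * m)) := by
        rw [hδi] at hr'
        rw [pow_mul (2 : ℝ) N (2 * m)]
        exact pow_le_pow_left₀ hr0.le hr' _
      have h6 : (m : ℝ) ≤ (2 : ℝ) ^ (m * N) := by
        have h7 : m ≤ 2 ^ (m * N) := by
          calc m ≤ 2 ^ m := Nat.lt_two_pow_self.le
            _ ≤ 2 ^ (m * N) := Nat.pow_le_pow_right (by norm_num)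
                (Nat.le_mul_of_pos_right m (by omega))
        exact_mod_cast h7
      calc (m : ℝ) * r ^ (2 * m) ≤ (2 : ℝ) ^ (m * N) * (2 : ℝ) ^ (N * (2 * m)) :=
            mul_le_mul h6 h5 (by positivity) (by positivity)
        _ = (2 : ℝ) ^ (3 * m * N) := by
            rw [← pow_add]
            congr 1
            ring
  have hsub : {z : ℂ | ¬ (((2 : ℝ) ^ N)⁻¹ ≤ ‖z‖ ∧ ‖z‖ ≤ (2 : ℝ) ^ N ∧
      BN.NonRes N (m * ‖z‖ ^ (2 * m)))} ⊆
      ({z : ℂ | ‖z‖ < ((2 : ℝ) ^ N)⁻¹} ∪ {z : ℂ | (2 : ℝ) ^ N < ‖z‖}) ∪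
      {z : ℂ | δ ≤ ‖z‖ ∧ ‖z‖ ≤ δ⁻¹ ∧ (m : ℝ) * ‖z‖ ^ (2 * m) ∈ B} := by
    intro z hz
    by_cases ha : ‖z‖ < ((2 : ℝ) ^ N)⁻¹
    · exact Or.inl (Or.inl ha)
    by_cases hb : (2 : ℝ) ^ N < ‖z‖
    · exact Or.inl (Or.inr hb)
    right
    rw [not_lt] at ha hb
    refine ⟨ha, by rw [hδi]; exact hb, hin _ ha (by rw [hδi]; exact hb), fun hH => ?_⟩
    apply hz
    refine ⟨ha, hb, ?_⟩
    have hI := hin _ ha (by rw [hδi]; exact hb)
    exact nonRes_of hN6 hNm hI (h2 N (by omega) _ hI hH.1 hH.2)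
  have hlaw := law_le hm hδ0 B
  have hvol := h3 N (by omega)
  refine (measure_mono hsub).trans ((measure_union_le _ _).trans
    ((add_le_add (measure_union_le _ _) le_rfl).trans ?_))
  have h4 : stdComplexGaussian {z : ℂ | δ ≤ ‖z‖ ∧ ‖z‖ ≤ δ⁻¹ ∧ (m : ℝ) * ‖z‖ ^ (2 * m) ∈ B} ≤
      ENNReal.ofReal (((2 : ℝ) ^ N)⁻¹ / 4) := by
    refine hlaw.trans ?_
    calc ENNReal.ofReal (8 * δ⁻¹ ^ (2 * m)) * volume B
        ≤ ENNReal.ofReal (8 * δ⁻¹ ^ (2 * m)) *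
          ENNReal.ofReal ((2 : ℝ) ^ (-((2 * m + 6 : ℝ) * N))) := by gcongr
      _ = ENNReal.ofReal (8 * δ⁻¹ ^ (2 * m) * (2 : ℝ) ^ (-((2 * m + 6 : ℝ) * N))) := by
          rw [← ENNReal.ofReal_mul (by positivity)]
      _ ≤ _ := by
          apply ENNReal.ofReal_le_ofReal
          have e1 : δ⁻¹ ^ (2 * m) = (2 : ℝ) ^ ((N : ℝ) * (2 * m)) := by
            rw [hδi, ← pow_mul, ← Real.rpow_natCast]
            push_cast
            rfl
          have e2 : (8 : ℝ) = (2 : ℝ) ^ (3 : ℝ) := by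
            rw [show (3 : ℝ) = ((3 : ℕ) : ℝ) by norm_num, Real.rpow_natCast]
            norm_num
          have e3 : ((2 : ℝ) ^ N)⁻¹ / 4 = (2 : ℝ) ^ (-(N : ℝ) - 2) := by
            rw [Real.rpow_sub (by norm_num), Real.rpow_neg (by norm_num), Real.rpow_natCast,
              show (2 : ℝ) ^ (2 : ℝ) = 4 by
                rw [show (2 : ℝ) = ((2 : ℕ) : ℝ) by norm_num, Real.rpow_natCast]; norm_num]
          rw [e1, e2, e3, ← Real.rpow_add (by norm_num), ← Real.rpow_add (by norm_num)]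
          apply Real.rpow_le_rpow_of_exponent_le (by norm_num)
          have hNr : (6 : ℝ) ≤ N := by exact_mod_cast hN6
          nlinarith
  refine (add_le_add (add_le_add (small_norm (by omega)) (large_norm (by omega))) h4).trans ?_
  rw [← ENNReal.ofReal_add (by positivity) (by positivity),
    ← ENNReal.ofReal_add (by positivity) (by positivity)]
  apply ENNReal.ofReal_le_ofReal
  have : 0 < ((2 : ℝ) ^ N)⁻¹ := by positivity
  linarith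

end Vale.Agent.P139.R2N
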