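import Vale.Agent.P139.Bdl.B1
import Mathlib.Analysis.SpecialFunctions.Log.Base

/-! Capped exponents and the size of the random datum in the capped weights. -/

set_option autoImplicit false

open Set Metric Filter Topology
open scoped NNReal ENNReal ComplexConjugate

namespace Vale.Agent.P139.R2P

open Vale.Agent.P139.A Vale.Agent.P139.A.WA

variable {d : ℕ}

/-- The Euclidean norm of a frequency. -/
noncomputable def eu (n : Lat d) : ℝ := Real.sqrt (sqNorm n)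

lemma eu_nonneg (n : Lat d) : 0 ≤ eu n := Real.sqrt_nonneg _

lemma eu_sq (n : Lat d) : eu n ^ 2 = sqNorm n := Real.sq_sqrt (sqNorm_nonneg n)

lemma eu_neg (n : Lat d) : eu (-n) = eu n := by rw [eu, sqNorm_neg, eu]

lemma one_le_eu {n : Lat d} (hn : n ≠ 0) : 1 ≤ eu n := by
  rw [eu, Real.one_le_sqrt]
  exact one_le_sqNorm hn

lemma eu_eq_norm (n : Lat d) :
    eu n = ‖(WithLp.toLp 2 (fun i => (n i : ℝ)) : EuclideanSpace ℝ (Fin d))‖ := by
  rw [EuclideanSpace.norm_eq]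
  unfold eu sqNorm
  congr 1
  refine Finset.sum_congr rfl fun i _ => ?_
  simp

lemma eu_add_le (a b : Lat d) : eu (a + b) ≤ eu a + eu b := by
  rw [eu_eq_norm, eu_eq_norm, eu_eq_norm]
  refine le_trans (le_of_eq ?_) (norm_add_le _ _)
  congr 1
  ext i
  simp

/-- The capped exponent `K min(1, |n| / R)`. -/
noncomputable def ce (K : ℕ) (R : ℝ) (n : Lat d) : ℝ := K * min 1 (eu n / R)

lemma ce_nonneg (K : ℕ) {R : ℝ} (hR : 0 ≤ R) (n : Lat d) : 0 ≤ ce K R n := by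
  unfold ce
  have := div_nonneg (eu_nonneg n) hR
  positivity

lemma ce_le (K : ℕ) (R : ℝ) (n : Lat d) : ce K R n ≤ K := by
  unfold ce
  exact mul_le_of_le_one_right (Nat.cast_nonneg _) (min_le_left _ _)

lemma ce_neg (K : ℕ) (R : ℝ) (n : Lat d) : ce K R (-n) = ce K R n := by
  rw [ce, ce, eu_neg]

lemma min_one_add_le {x y z : ℝ} (hx : 0 ≤ x) (hy : 0 ≤ y) (h : z ≤ x + y) :
    min 1 z ≤ min 1 x + min 1 y := by
  rcases le_total 1 x with h1 | h1
  · rw [min_eq_left h1]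
    exact (min_le_left _ _).trans (le_add_of_nonneg_right (le_min zero_le_one hy))
  · rcases le_total 1 y with h2 | h2
    · rw [min_eq_left h2]
      exact (min_le_left _ _).trans (le_add_of_nonneg_left (le_min zero_le_one hx))
    · rw [min_eq_right h1, min_eq_right h2]
      exact (min_le_right _ _).trans h

lemma ce_add_le (K : ℕ) {R : ℝ} (hR : 0 ≤ R) (a b : Lat d) :
    ce K R (a + b) ≤ ce K R a + ce K R b := by
  unfold ce
  rw [← mul_add]
  refine mul_le_mul_of_nonneg_left ?_ (Nat.cast_nonneg _)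
  refine min_one_add_le (div_nonneg (eu_nonneg a) hR) (div_nonneg (eu_nonneg b) hR) ?_
  rw [← add_div]
  exact div_le_div_of_nonneg_right (eu_add_le a b) hR

lemma logb_ge_eu {n : Lat d} (hn : n ≠ 0) :
    Real.logb 2 (eu n) ≤ 1 / 2 * Real.logb 2 (1 + sqNorm n) := by
  have h1 := one_le_eu hn
  have h0 := sqNorm_nonneg n
  have h2 : eu n = (sqNorm n) ^ (1 / 2 : ℝ) := by rw [eu, Real.sqrt_eq_rpow]
  have h3 : 0 < sqNorm n := lt_of_lt_of_le one_pos (one_le_sqNorm hn)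
  rw [h2, Real.logb_rpow_eq_mul_logb_of_pos h3]
  have := Real.logb_le_logb_of_le (b := 2) (by norm_num) h3 (by linarith : sqNorm n ≤ 1 + sqNorm n)
  linarith

/-- For nonzero frequencies the capped exponent is smaller than `log₂⟨n⟩ - 1/4`. -/
lemma ce_le_log {K : ℕ} {R : ℝ} (hR1 : 16 * (K : ℝ) ^ 2 ≤ R) (hR2 : (2 : ℝ) ^ (2 * K + 1) ≤ R)
    {n : Lat d} (hn : n ≠ 0) :
    ce K R n ≤ 1 / 2 * Real.logb 2 (1 + sqNorm n) - 1 / 4 := by
  have hR0 : 0 < R := lt_of_lt_of_le (by positivity) hR2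
  have h1 := one_le_eu hn
  have hs := one_le_sqNorm hn
  rcases le_total (eu n ^ 2) R with h | h
  · -- `K |n| / R ≤ K / √R ≤ 1/4`
    have h2 : ce K R n ≤ 1 / 4 := by
      unfold ce
      have h3 : min 1 (eu n / R) ≤ eu n / R := min_le_right _ _
      have h4 : (K : ℝ) * (eu n / R) ≤ 1 / 4 := by
        have h5 : (4 * (K : ℝ) * eu n) ^ 2 ≤ R ^ 2 := by
          have : (4 * (K : ℝ) * eu n) ^ 2 = (16 * (K : ℝ) ^ 2) * eu n ^ 2 := by ring
          rw [this, sq R]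
          exact mul_le_mul hR1 h (by positivity) hR0.le
        have h6 : 4 * (K : ℝ) * eu n ≤ R := by
          exact (le_abs_self _).trans (abs_le_of_sq_le_sq h5 hR0.le)
        rw [← mul_div_assoc, div_le_iff₀ hR0]
        linarith
      exact (mul_le_mul_of_nonneg_left h3 (Nat.cast_nonneg _)).trans h4
    have h3 : (1 : ℝ) ≤ Real.logb 2 (1 + sqNorm n) := by
      rw [Real.le_logb_iff_rpow_le (by norm_num) (by linarith)]
      rw [Real.rpow_one]
      linarith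
    linarith
  · have h2 : ce K R n ≤ K := ce_le K R n
    have h3 : (2 * K + 1 : ℝ) ≤ Real.logb 2 (1 + sqNorm n) := by
      rw [Real.le_logb_iff_rpow_le (by norm_num) (by linarith)]
      have h4 : (2 : ℝ) ^ (2 * (K : ℝ) + 1) = (2 : ℝ) ^ (2 * K + 1) := by
        rw [← Real.rpow_natCast]
        push_cast
        rfl
      rw [h4]
      have h5 := eu_sq n
      linarith
    linarith

/-- For high frequencies the capped exponent is at most `(1/2) log₂⟨n⟩`. -/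
lemma ce_le_half_log {K : ℕ} {R : ℝ} (hR2 : (2 : ℝ) ^ (2 * K + 1) ≤ R)
    {n : Lat d} (hn : n ≠ 0) (h : R ≤ eu n) :
    ce K R n ≤ 1 / 4 * Real.logb 2 (1 + sqNorm n) := by
  have hR0 : 0 < R := lt_of_lt_of_le (by positivity) hR2
  have h2 : ce K R n ≤ K := ce_le K R n
  have h3 : (2 * K + 1 : ℝ) ≤ Real.logb 2 (eu n) := by
    rw [Real.le_logb_iff_rpow_le (by norm_num) (by linarith)]
    have h4 : (2 : ℝ) ^ (2 * (K : ℝ) + 1) = (2 : ℝ) ^ (2 * K + 1) := by
      rw [← Real.rpow_natCast]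
      push_cast
      rfl
    rw [h4]
    linarith
  have h4 := logb_ge_eu hn
  linarith

/-- Uniformly: `e_n ≤ log₂⟨n⟩ - 1/4` and `e_n ≤ (1/2) log₂⟨n⟩ + K`. -/
lemma rpow_ce_le {K : ℕ} {R : ℝ} (hR1 : 16 * (K : ℝ) ^ 2 ≤ R) (hR2 : (2 : ℝ) ^ (2 * K + 1) ≤ R)
    {n : Lat d} (hn : n ≠ 0) {α α₁ : ℝ} (hα₁ : 0 ≤ α₁) (hα : α₁ ≤ α) :
    (2 : ℝ) ^ (α * ce K R n) * Real.sqrt (1 + sqNorm n) ^ (-α) ≤
      (2 : ℝ) ^ (-(α - α₁) / 4) * ((2 : ℝ) ^ (α₁ * K) * Real.sqrt (1 + sqNorm n) ^ (-α₁)) := by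
  have hs := one_le_sqNorm hn
  have hs0 : 0 < 1 + sqNorm n := by linarith
  have hJ0 : 0 < Real.sqrt (1 + sqNorm n) := Real.sqrt_pos.2 hs0
  have h2 : ∀ β : ℝ, Real.sqrt (1 + sqNorm n) ^ (-β) =
      (2 : ℝ) ^ (-β * (1 / 2 * Real.logb 2 (1 + sqNorm n))) := by
    intro β
    have e1 : Real.sqrt (1 + sqNorm n) = (2 : ℝ) ^ (1 / 2 * Real.logb 2 (1 + sqNorm n)) := by
      rw [mul_comm, Real.rpow_mul (by norm_num), Real.rpow_logb (by norm_num) (by norm_num) hs0,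
        Real.sqrt_eq_rpow]
    rw [mul_comm (-β), Real.rpow_mul (by norm_num), ← e1]
  rw [h2, h2, ← Real.rpow_add (by norm_num), ← Real.rpow_add (by norm_num),
    ← Real.rpow_add (by norm_num)]
  apply Real.rpow_le_rpow_of_exponent_le (by norm_num)
  have h3 := ce_le_log hR1 hR2 hn
  have h4 := ce_le K R n
  set L := 1 / 2 * Real.logb 2 (1 + sqNorm n)
  have h5 : (α - α₁) * (ce K R n - L) ≤ (α - α₁) * (-1 / 4) :=
    mul_le_mul_of_nonneg_left (by linarith) (by linarith)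
  have h6 : α₁ * ce K R n ≤ α₁ * K := mul_le_mul_of_nonneg_left h4 hα₁
  nlinarith

end Vale.Agent.P139.R2P
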